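import Vale.Agent.P345.Base

namespace Vale.Agent.P345

section
variable {X Y : Type} [Cd X] [Cd Y]

theorem add0 : SFn (fun p : ℕ × ℕ => p.1 + p.2) := by
  refine SF.ofRaw (Raw.poly (α := (Unit ⊕ Unit) ⊕ Unit)
    (((PolyFn.proj (.inl (.inl ()))).add (PolyFn.proj (.inl (.inr ())))).sub
      (PolyFn.proj (.inr ())))) fun p => ?_
  change (p.1.1 : ℤ) + (p.1.2 : ℤ) - (p.2 : ℤ) = 0 ↔ p.1.1 + p.1.2 = p.2
  omega

theorem mul0 : SFn (fun p : ℕ × ℕ => p.1 * p.2) := by
  refine SF.ofRaw (Raw.poly (α := (Unit ⊕ Unit) ⊕ Unit)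
    (((PolyFn.proj (.inl (.inl ()))).mul (PolyFn.proj (.inl (.inr ())))).sub
      (PolyFn.proj (.inr ())))) fun p => ?_
  change (p.1.1 : ℤ) * (p.1.2 : ℤ) - (p.2 : ℤ) = 0 ↔ _
  rw [sub_eq_zero]; norm_cast

@[fun_prop] theorem SFn.add {f g : X → ℕ} (hf : SFn f) (hg : SFn g) :
    SFn (fun x => f x + g x) := add0.comp (hf.pair hg)

@[fun_prop] theorem SFn.mul {f g : X → ℕ} (hf : SFn f) (hg : SFn g) :
    SFn (fun x => f x * g x) := mul0.comp (hf.pair hg)

@[fun_prop] theorem SF.le {f g : X → ℕ} (hf : SFn f) (hg : SFn g) :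
    SF (fun x => f x ≤ g x) := by
  have : SF (fun x => ∃ c : ℕ, f x + c = g x) :=
    SF.ex (by fun_prop) (by intro x y y' a b; omega)
  exact this.congr fun x => ⟨fun ⟨c, h⟩ => by omega, fun h => ⟨g x - f x, by omega⟩⟩

@[fun_prop] theorem SF.lt {f g : X → ℕ} (hf : SFn f) (hg : SFn g) :
    SF (fun x => f x < g x) :=
  (SF.le (f := fun x => f x + 1) (by fun_prop) hg).congr fun _ => Iff.rfl

theorem SF.neNat {f g : X → ℕ} (hf : SFn f) (hg : SFn g) :
    SF (fun x => ¬ f x = g x) :=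
  ((SF.lt hf hg).xor (SF.lt hg hf) (fun x a b => by omega)).congr fun x => by omega

@[fun_prop] theorem SFn.sub {f g : X → ℕ} (hf : SFn f) (hg : SFn g) :
    SFn (fun x => f x - g x) := by
  have : SF (fun p : X × ℕ => (f p.1 = g p.1 + p.2) ∨ (f p.1 < g p.1 ∧ p.2 = 0)) :=
    SF.xor (by fun_prop) (by fun_prop) (fun x a b => by omega)
  exact this.graph fun p => by omega

@[fun_prop] theorem SFn.div {f g : X → ℕ} (hf : SFn f) (hg : SFn g) :
    SFn (fun x => f x / g x) := by
  have : SF (fun p : X × ℕ => (g p.1 * p.2 ≤ f p.1 ∧ f p.1 < g p.1 * p.2 + g p.1) ∨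
      (g p.1 = 0 ∧ p.2 = 0)) :=
    SF.xor (by fun_prop) (by fun_prop) (fun x a b => by rw [b.1] at a; omega)
  refine this.congr fun p => ?_
  rcases Nat.eq_zero_or_pos (g p.1) with h | h
  · simp [h, eq_comm]
  · rw [Nat.div_eq_iff h]
    constructor
    · rintro (⟨a, b⟩ | ⟨a, b⟩)
      · rw [mul_comm] at a b; omega
      · omega
    · rintro ⟨a, b⟩
      left; rw [mul_comm]; omega

@[fun_prop] theorem SFn.mod {f g : X → ℕ} (hf : SFn f) (hg : SFn g) :
    SFn (fun x => f x % g x) := by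
  have : SFn (fun x => f x - g x * (f x / g x)) := by fun_prop
  exact this.congr fun x => by rw [Nat.mod_def]

@[fun_prop] theorem SFn.max {f g : X → ℕ} (hf : SFn f) (hg : SFn g) :
    SFn (fun x => max (f x) (g x)) := by
  have : SFn (fun x => f x + (g x - f x)) := by fun_prop
  exact this.congr fun x => by omega

theorem SFn.powc {f : X → ℕ} (hf : SFn f) (k : ℕ) : SFn (fun x => f x ^ k) := by
  induction k with
  | zero => simpa using SFn.const (1 : ℕ)
  | succ k ih => exact (ih.mul hf).congr fun x => by rw [pow_succ]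

theorem SFn.sum {ι : Type} (s : Finset ι) {f : ι → X → ℕ} (h : ∀ i ∈ s, SFn (f i)) :
    SFn (fun x => ∑ i ∈ s, f i x) := by
  classical
  induction s using Finset.induction_on with
  | empty => simpa using SFn.const (0 : ℕ)
  | insert a s ha ih =>
    simp only [Finset.sum_insert ha]
    exact (h a (by simp)).add (ih fun i hi => h i (by simp [hi]))

theorem SFn.prod {ι : Type} (s : Finset ι) {f : ι → X → ℕ} (h : ∀ i ∈ s, SFn (f i)) :
    SFn (fun x => ∏ i ∈ s, f i x) := by
  classical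
  induction s using Finset.induction_on with
  | empty => simpa using SFn.const (1 : ℕ)
  | insert a s ha ih =>
    simp only [Finset.prod_insert ha]
    exact (h a (by simp)).mul (ih fun i hi => h i (by simp [hi]))

@[fun_prop] theorem SFn.natPair {f g : X → ℕ} (hf : SFn f) (hg : SFn g) :
    SFn (fun x => Nat.pair (f x) (g x)) := by
  have : SFn (fun x => if f x < g x then g x * g x + f x else f x * f x + f x + g x) :=
    SFn.ite (by fun_prop) ((SF.le hg hf).congr fun x => by omega) (by fun_prop) (by fun_prop)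
  exact this.congr fun x => by rw [Nat.pair]

theorem unpair0 : SFn Nat.unpair := by
  have : SF (fun p : ℕ × (ℕ × ℕ) => p.1 = Nat.pair p.2.1 p.2.2) := by fun_prop
  refine this.congr ?_
  rintro ⟨a, b, c⟩
  constructor
  · intro h; simp only at h; simp [h]
  · intro h
    have := Nat.pair_unpair a
    simp only at h
    rw [h] at this; exact this.symm

@[fun_prop] theorem SFn.unpair {f : X → ℕ} (hf : SFn f) : SFn (fun x => Nat.unpair (f x)) :=
  unpair0.comp hf

end

/-! Integers -/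

def encZ (z : ℤ) : ℕ × ℕ := (z.toNat, (-z).toNat)

theorem encZ_inj : Function.Injective encZ := by
  intro a b h
  simp only [encZ, Prod.mk.injEq] at h
  omega

instance cdInt : Cd ℤ := Cd.ofInj encZ encZ_inj (by
  have : SF (fun p : ℕ × ℕ => p.1 * p.2 = 0) := by fun_prop
  refine this.congr ?_
  rintro ⟨a, b⟩
  simp only [encZ, Prod.mk.injEq, mul_eq_zero]
  constructor
  · intro h; exact ⟨a - b, by omega, by omega⟩
  · rintro ⟨w, rfl, rfl⟩; omega)

theorem encZ_sf : SFn encZ := SFn.coord _ id fun _ => rfl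

section
variable {X Y : Type} [Cd X] [Cd Y]

@[fun_prop] theorem SFn.toNat {f : X → ℤ} (hf : SFn f) : SFn (fun x => (f x).toNat) :=
  (encZ_sf.comp hf).fst

theorem SFn.negToNat {f : X → ℤ} (hf : SFn f) : SFn (fun x => (-f x).toNat) :=
  (encZ_sf.comp hf).snd

@[fun_prop] theorem SFn.negZ {f : X → ℤ} (hf : SFn f) : SFn (fun x => -f x) := by
  refine SFn.of_inj encZ_inj encZ_sf ?_
  exact (hf.negToNat.pair hf.toNat).congr fun x => by simp [encZ]

@[fun_prop] theorem SFn.castZ {f : X → ℕ} (hf : SFn f) : SFn (fun x => (f x : ℤ)) := by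
  refine SFn.of_inj encZ_inj encZ_sf ?_
  exact (hf.pair (SFn.const (0 : ℕ))).congr fun x => by simp [encZ]

@[fun_prop] theorem SFn.addZ {f g : X → ℤ} (hf : SFn f) (hg : SFn g) :
    SFn (fun x => f x + g x) := by
  have : SF (fun p : X × ℤ => (f p.1).toNat + (g p.1).toNat + (-p.2).toNat =
      p.2.toNat + (-f p.1).toNat + (-g p.1).toNat) := by fun_prop
  exact this.graph fun p => by omega

@[fun_prop] theorem SFn.subZ {f g : X → ℤ} (hf : SFn f) (hg : SFn g) :
    SFn (fun x => f x - g x) :=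
  (hf.addZ hg.negZ).congr fun x => by ring

@[fun_prop] theorem SFn.mulZ {f g : X → ℤ} (hf : SFn f) (hg : SFn g) :
    SFn (fun x => f x * g x) := by
  have : SFn (fun x => (((f x).toNat * (g x).toNat + (-f x).toNat * (-g x).toNat : ℕ) : ℤ) -
      (((f x).toNat * (-g x).toNat + (-f x).toNat * (g x).toNat : ℕ) : ℤ)) := by fun_prop
  refine this.congr fun x => ?_
  push_cast
  have h1 := Int.toNat_sub_toNat_neg (f x)
  have h2 := Int.toNat_sub_toNat_neg (g x)
  conv_rhs => rw [← h1, ← h2]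
  ring

@[fun_prop] theorem SFn.natAbs {f : X → ℤ} (hf : SFn f) : SFn (fun x => (f x).natAbs) := by
  have : SFn (fun x => (f x).toNat + (-f x).toNat) := by fun_prop
  exact this.congr fun x => by omega

theorem SFn.sumZ {ι : Type} (s : Finset ι) {f : ι → X → ℤ} (h : ∀ i ∈ s, SFn (f i)) :
    SFn (fun x => ∑ i ∈ s, f i x) := by
  classical
  induction s using Finset.induction_on with
  | empty => simpa using SFn.const (0 : ℤ)
  | insert a s ha ih =>
    simp only [Finset.sum_insert ha]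
    exact (h a (by simp)).addZ (ih fun i hi => h i (by simp [hi]))

theorem SF.coprime {f g : X → ℕ} (hf : SFn f) (hg : SFn g) :
    SF (fun x => g x ≠ 0 ∧ (f x).Coprime (g x)) := by
  have : SF (fun x => ∃ s : ℕ, s < g x ∧ (f x * s) % g x = 1 % g x) := by
    refine SF.ex (by fun_prop) ?_
    rintro x s s' ⟨a, b⟩ ⟨c, d⟩
    have hc : (f x).Coprime (g x) := Nat.coprime_of_mul_modEq_one s b
    have : f x * s ≡ f x * s' [MOD g x] := b.trans d.symm
    exact Nat.ModEq.eq_of_lt_of_lt (Nat.ModEq.cancel_left_of_coprime hc.symm this) a c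
  refine this.congr fun x => ?_
  constructor
  · rintro ⟨s, a, b⟩
    exact ⟨by omega, Nat.coprime_of_mul_modEq_one s b⟩
  · rintro ⟨a, b⟩
    rcases Nat.lt_or_ge 1 (g x) with h | h
    · obtain ⟨m, hm, e⟩ := Nat.exists_mul_mod_eq_one_of_coprime b h
      exact ⟨m, hm, by rw [e, Nat.mod_eq_of_lt h]⟩
    · have : g x = 1 := by omega
      exact ⟨0, by omega, by simp [this]⟩

end

/-! Rationals -/

def encQ (q : ℚ) : ℤ × ℕ := (q.num, q.den)

theorem encQ_inj : Function.Injective encQ := by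
  intro a b h
  simp only [encQ, Prod.mk.injEq] at h
  exact Rat.ext h.1 h.2

instance cdRat : Cd ℚ := Cd.ofInj encQ encQ_inj (by
  have : SF (fun p : ℤ × ℕ => p.2 ≠ 0 ∧ p.1.natAbs.Coprime p.2) :=
    SF.coprime (by fun_prop) (by fun_prop)
  refine this.congr ?_
  rintro ⟨a, b⟩
  simp only [encQ, Prod.mk.injEq]
  constructor
  · intro h; exact ⟨⟨a, b, h.1, h.2⟩, rfl, rfl⟩
  · rintro ⟨w, rfl, rfl⟩; exact ⟨w.den_nz, w.reduced⟩)

theorem encQ_sf : SFn encQ := SFn.coord _ id fun _ => rfl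

section
variable {X Y : Type} [Cd X] [Cd Y]

@[fun_prop] theorem SFn.num {f : X → ℚ} (hf : SFn f) : SFn (fun x => (f x).num) :=
  (encQ_sf.comp hf).fst

@[fun_prop] theorem SFn.den {f : X → ℚ} (hf : SFn f) : SFn (fun x => (f x).den) :=
  (encQ_sf.comp hf).snd

@[fun_prop] theorem SFn.addQ {f g : X → ℚ} (hf : SFn f) (hg : SFn g) :
    SFn (fun x => f x + g x) := by
  have : SF (fun p : X × ℚ => ((f p.1).num * (g p.1).den + (g p.1).num * (f p.1).den) * p.2.den =
      p.2.num * ((f p.1).den * (g p.1).den)) := by fun_prop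
  refine this.graph fun p => ?_
  generalize f p.1 = a
  generalize g p.1 = b
  generalize p.2 = c
  have ha : (a.den : ℚ) ≠ 0 := by simp
  have hb : (b.den : ℚ) ≠ 0 := by simp
  have hc : (c.den : ℚ) ≠ 0 := by simp
  rw [← Int.cast_inj (α := ℚ)]
  push_cast
  rw [← Rat.mul_den_eq_num a, ← Rat.mul_den_eq_num b, ← Rat.mul_den_eq_num c]
  constructor
  · intro h
    apply mul_right_cancel₀ (mul_ne_zero (mul_ne_zero ha hb) hc)
    linear_combination h
  · rintro rfl; ring

@[fun_prop] theorem SFn.mulQ {f g : X → ℚ} (hf : SFn f) (hg : SFn g) :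
    SFn (fun x => f x * g x) := by
  have : SF (fun p : X × ℚ => ((f p.1).num * (g p.1).num) * p.2.den =
      p.2.num * ((f p.1).den * (g p.1).den)) := by fun_prop
  refine this.graph fun p => ?_
  generalize f p.1 = a
  generalize g p.1 = b
  generalize p.2 = c
  have ha : (a.den : ℚ) ≠ 0 := by simp
  have hb : (b.den : ℚ) ≠ 0 := by simp
  have hc : (c.den : ℚ) ≠ 0 := by simp
  rw [← Int.cast_inj (α := ℚ)]
  push_cast
  rw [← Rat.mul_den_eq_num a, ← Rat.mul_den_eq_num b, ← Rat.mul_den_eq_num c]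
  constructor
  · intro h
    apply mul_right_cancel₀ (mul_ne_zero (mul_ne_zero ha hb) hc)
    linear_combination h
  · rintro rfl; ring

@[fun_prop] theorem SFn.negQ {f : X → ℚ} (hf : SFn f) : SFn (fun x => -f x) :=
  ((SFn.const (-1 : ℚ)).mulQ hf).congr fun x => by ring

@[fun_prop] theorem SFn.subQ {f g : X → ℚ} (hf : SFn f) (hg : SFn g) :
    SFn (fun x => f x - g x) :=
  (hf.addQ hg.negQ).congr fun x => by ring

theorem SF.neQ {f g : X → ℚ} (hf : SFn f) (hg : SFn g) : SF (fun x => ¬ f x = g x) := by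
  have : SF (fun x => 0 < (f x - g x).num.natAbs) := by fun_prop
  exact this.congr fun x => by simp [sub_eq_zero]

@[fun_prop] theorem SFn.divQ {f g : X → ℚ} (hf : SFn f) (hg : SFn g) :
    SFn (fun x => f x / g x) := by
  have : SF (fun p : X × ℚ => (g p.1 = 0 ∧ p.2 = 0) ∨ (¬ g p.1 = 0 ∧ p.2 * g p.1 = f p.1)) :=
    SF.xor (by fun_prop) (SF.and (SF.neQ (by fun_prop) (by fun_prop)) (by fun_prop))
      (fun x a b => b.1 a.1)
  refine this.congr fun p => ?_
  by_cases h : g p.1 = 0
  · simp [h, eq_comm]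
  · simp only [h, false_and, not_false_eq_true, true_and, false_or]
    rw [div_eq_iff h, eq_comm]

end

end Vale.Agent.P345
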