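import Mathlib

namespace Vale.Agent.P345

open MvPolynomial

/-- Integer valued polynomial functions of natural number variables. -/
def PolyFn {α : Type} (f : (α → ℕ) → ℤ) : Prop :=
  ∃ p : MvPolynomial α ℤ, ∀ v, f v = eval (fun i => (v i : ℤ)) p

section
variable {α β γ : Type}

theorem PolyFn.proj (i : α) : PolyFn (fun v : α → ℕ => (v i : ℤ)) := ⟨X i, by simp⟩
theorem PolyFn.const (c : ℤ) : PolyFn (fun _ : α → ℕ => c) := ⟨C c, by simp⟩
theorem PolyFn.add {f g : (α → ℕ) → ℤ} (hf : PolyFn f) (hg : PolyFn g) :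
    PolyFn (fun v => f v + g v) := by
  obtain ⟨p, hp⟩ := hf; obtain ⟨q, hq⟩ := hg
  exact ⟨p + q, by simp [hp, hq]⟩
theorem PolyFn.sub {f g : (α → ℕ) → ℤ} (hf : PolyFn f) (hg : PolyFn g) :
    PolyFn (fun v => f v - g v) := by
  obtain ⟨p, hp⟩ := hf; obtain ⟨q, hq⟩ := hg
  exact ⟨p - q, by simp [hp, hq]⟩
theorem PolyFn.mul {f g : (α → ℕ) → ℤ} (hf : PolyFn f) (hg : PolyFn g) :
    PolyFn (fun v => f v * g v) := by
  obtain ⟨p, hp⟩ := hf; obtain ⟨q, hq⟩ := hg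
  exact ⟨p * q, by simp [hp, hq]⟩
theorem PolyFn.ren {f : (α → ℕ) → ℤ} (hf : PolyFn f) (g : α → β) :
    PolyFn (fun w : β → ℕ => f (w ∘ g)) := by
  obtain ⟨p, hp⟩ := hf
  refine ⟨rename g p, fun v => ?_⟩
  rw [eval_rename]; exact hp _
theorem PolyFn.sum {ι : Type} (s : Finset ι) {f : ι → (α → ℕ) → ℤ} (hf : ∀ i, PolyFn (f i)) :
    PolyFn (fun v => ∑ i ∈ s, f i v) := by
  classical
  induction s using Finset.induction_on with
  | empty => simpa using PolyFn.const 0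
  | insert a s ha ih =>
    simp only [Finset.sum_insert ha]
    exact (hf a).add ih

/-- Single-fold Diophantine sets of tuples. -/
def Raw {α : Type} (S : (α → ℕ) → Prop) : Prop :=
  ∃ (β : Type) (_ : Fintype β) (f : (α ⊕ β → ℕ) → ℤ), PolyFn f ∧
    (∀ v, S v ↔ ∃ t : β → ℕ, f (Sum.elim v t) = 0) ∧
    ∀ v t t', f (Sum.elim v t) = 0 → f (Sum.elim v t') = 0 → t = t'

theorem Raw.congr {S T : (α → ℕ) → Prop} (h : Raw S) (e : ∀ v, S v ↔ T v) : Raw T := by
  have : S = T := funext fun v => propext (e v)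
  rwa [← this]

theorem Raw.poly {f : (α → ℕ) → ℤ} (hf : PolyFn f) : Raw (fun v => f v = 0) := by
  refine ⟨Empty, inferInstance, fun w => f (w ∘ Sum.inl), hf.ren _, fun v => ?_, ?_⟩
  · constructor
    · intro h; exact ⟨Empty.elim, h⟩
    · rintro ⟨t, h⟩; exact h
  · intro v t t' _ _; exact Subsingleton.elim _ _

theorem Raw.ren {S : (α → ℕ) → Prop} (h : Raw S) (g : α → γ) :
    Raw (fun w : γ → ℕ => S (w ∘ g)) := by
  obtain ⟨β, _, f, hf, h1, h2⟩ := h
  have e : ∀ (w : γ → ℕ) (t : β → ℕ), Sum.elim w t ∘ Sum.map g id = Sum.elim (w ∘ g) t := by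
    intro w t; funext i; cases i <;> rfl
  refine ⟨β, inferInstance, fun w => f (w ∘ Sum.map g id), hf.ren _, fun v => ?_, ?_⟩
  · simp only [e]; exact h1 _
  · intro v t t'; simp only [e]; exact h2 _ _ _

theorem Raw.and {S T : (α → ℕ) → Prop} (hS : Raw S) (hT : Raw T) :
    Raw (fun v => S v ∧ T v) := by
  obtain ⟨β, _, f, hf, h1, h2⟩ := hS
  obtain ⟨γ, _, g, hg, h3, h4⟩ := hT
  have e1 : ∀ (w : α → ℕ) (t : β ⊕ γ → ℕ),
      Sum.elim w t ∘ Sum.map id Sum.inl = Sum.elim w (t ∘ Sum.inl) := by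
    intro w t; funext i; cases i <;> rfl
  have e2 : ∀ (w : α → ℕ) (t : β ⊕ γ → ℕ),
      Sum.elim w t ∘ Sum.map id Sum.inr = Sum.elim w (t ∘ Sum.inr) := by
    intro w t; funext i; cases i <;> rfl
  refine ⟨β ⊕ γ, inferInstance, fun w => f (w ∘ Sum.map id Sum.inl) * f (w ∘ Sum.map id Sum.inl) +
    g (w ∘ Sum.map id Sum.inr) * g (w ∘ Sum.map id Sum.inr),
    ((hf.ren _).mul (hf.ren _)).add ((hg.ren _).mul (hg.ren _)), fun v => ?_, ?_⟩
  · simp only [e1, e2, mul_self_add_mul_self_eq_zero, h1, h3]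
    constructor
    · rintro ⟨⟨t, ht⟩, ⟨u, hu⟩⟩
      exact ⟨Sum.elim t u, ht, hu⟩
    · rintro ⟨t, ht, hu⟩
      exact ⟨⟨_, ht⟩, ⟨_, hu⟩⟩
  · intro v t t'
    simp only [e1, e2, mul_self_add_mul_self_eq_zero]
    rintro ⟨a, b⟩ ⟨c, d⟩
    have := h2 _ _ _ a c
    have := h4 _ _ _ b d
    funext i
    cases i with
    | inl i => exact congrFun ‹t ∘ Sum.inl = t' ∘ Sum.inl› i
    | inr i => exact congrFun ‹t ∘ Sum.inr = t' ∘ Sum.inr› i

theorem sq_add_sum_eq_zero {ι : Type} [Fintype ι] (a : ℤ) (t : ι → ℕ) :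
    a * a + ∑ i, (t i : ℤ) = 0 ↔ a = 0 ∧ t = 0 := by
  have h0 : (0 : ℤ) ≤ ∑ i, (t i : ℤ) := Finset.sum_nonneg fun i _ => by positivity
  constructor
  · intro h
    have h1 : a * a = 0 := by nlinarith [mul_self_nonneg a]
    have h2 : ∑ i, (t i : ℤ) = 0 := by linarith
    refine ⟨by simpa using h1, ?_⟩
    funext i
    have := (Finset.sum_eq_zero_iff_of_nonneg (fun i _ => by positivity)).1 h2 i (Finset.mem_univ _)
    simpa using this
  · rintro ⟨rfl, rfl⟩; simp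

theorem Raw.xor {S T : (α → ℕ) → Prop} (hS : Raw S) (hT : Raw T) (hd : ∀ v, S v → T v → False) :
    Raw (fun v => S v ∨ T v) := by
  obtain ⟨β, _, f, hf, h1, h2⟩ := hS
  obtain ⟨γ, _, g, hg, h3, h4⟩ := hT
  have e1 : ∀ (w : α → ℕ) (t : β ⊕ γ → ℕ),
      Sum.elim w t ∘ Sum.map id Sum.inl = Sum.elim w (t ∘ Sum.inl) := by
    intro w t; funext i; cases i <;> rfl
  have e2 : ∀ (w : α → ℕ) (t : β ⊕ γ → ℕ),
      Sum.elim w t ∘ Sum.map id Sum.inr = Sum.elim w (t ∘ Sum.inr) := by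
    intro w t; funext i; cases i <;> rfl
  have key : ∀ (v : α → ℕ) (t : β ⊕ γ → ℕ),
      (f (Sum.elim v (t ∘ Sum.inl)) * f (Sum.elim v (t ∘ Sum.inl)) +
        ∑ i : γ, (t (Sum.inr i) : ℤ)) *
      (g (Sum.elim v (t ∘ Sum.inr)) * g (Sum.elim v (t ∘ Sum.inr)) +
        ∑ i : β, (t (Sum.inl i) : ℤ)) = 0 ↔
      (f (Sum.elim v (t ∘ Sum.inl)) = 0 ∧ t ∘ Sum.inr = 0) ∨
      (g (Sum.elim v (t ∘ Sum.inr)) = 0 ∧ t ∘ Sum.inl = 0) := by
    intro v t
    rw [mul_eq_zero, ← sq_add_sum_eq_zero, ← sq_add_sum_eq_zero]; rfl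
  refine ⟨β ⊕ γ, inferInstance, fun w =>
    (f (w ∘ Sum.map id Sum.inl) * f (w ∘ Sum.map id Sum.inl) +
      ∑ i : γ, (w (Sum.inr (Sum.inr i)) : ℤ)) *
    (g (w ∘ Sum.map id Sum.inr) * g (w ∘ Sum.map id Sum.inr) +
      ∑ i : β, (w (Sum.inr (Sum.inl i)) : ℤ)),
    (((hf.ren _).mul (hf.ren _)).add (PolyFn.sum _ fun i => PolyFn.proj _)).mul
      (((hg.ren _).mul (hg.ren _)).add (PolyFn.sum _ fun i => PolyFn.proj _)), fun v => ?_, ?_⟩
  · simp only [e1, e2, Sum.elim_inr, key, h1, h3]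
    constructor
    · rintro (⟨t, ht⟩ | ⟨u, hu⟩)
      · exact ⟨Sum.elim t 0, Or.inl ⟨ht, rfl⟩⟩
      · exact ⟨Sum.elim 0 u, Or.inr ⟨hu, rfl⟩⟩
    · rintro ⟨t, ⟨ht, -⟩ | ⟨ht, -⟩⟩
      · exact Or.inl ⟨_, ht⟩
      · exact Or.inr ⟨_, ht⟩
  · intro v t t'
    simp only [e1, e2, Sum.elim_inr, key]
    have ex : ∀ t t' : β ⊕ γ → ℕ, t ∘ Sum.inl = t' ∘ Sum.inl → t ∘ Sum.inr = t' ∘ Sum.inr →
        t = t' := by
      intro t t' a b; funext i
      cases i with
      | inl i => exact congrFun a i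
      | inr i => exact congrFun b i
    rintro (⟨a, b⟩ | ⟨a, b⟩) (⟨c, d⟩ | ⟨c, d⟩)
    · exact ex _ _ (h2 _ _ _ a c) (b.trans d.symm)
    · exact (hd v ((h1 v).2 ⟨_, a⟩) ((h3 v).2 ⟨_, c⟩)).elim
    · exact (hd v ((h1 v).2 ⟨_, c⟩) ((h3 v).2 ⟨_, a⟩)).elim
    · exact ex _ _ (b.trans d.symm) (h4 _ _ _ a c)

theorem Raw.ex [Fintype γ] {S : (α ⊕ γ → ℕ) → Prop} (h : Raw S)
    (hu : ∀ v u u', S (Sum.elim v u) → S (Sum.elim v u') → u = u') :
    Raw (fun v => ∃ u, S (Sum.elim v u)) := by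
  obtain ⟨β, _, f, hf, h1, h2⟩ := h
  let g : (α ⊕ γ) ⊕ β → α ⊕ (γ ⊕ β) := Equiv.sumAssoc α γ β
  have e : ∀ (w : α → ℕ) (t : γ ⊕ β → ℕ),
      Sum.elim w t ∘ g = Sum.elim (Sum.elim w (t ∘ Sum.inl)) (t ∘ Sum.inr) := by
    intro w t; funext i; rcases i with (i | i) | i <;> rfl
  refine ⟨γ ⊕ β, inferInstance, fun w => f (w ∘ g), hf.ren _, fun v => ?_, ?_⟩
  · simp only [e, h1]
    constructor
    · rintro ⟨u, t, ht⟩; exact ⟨Sum.elim u t, ht⟩
    · rintro ⟨t, ht⟩; exact ⟨_, _, ht⟩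
  · intro v t t'
    simp only [e]
    intro a b
    have c := hu _ _ _ ((h1 _).2 ⟨_, a⟩) ((h1 _).2 ⟨_, b⟩)
    rw [c] at a
    have d := h2 _ _ _ a b
    funext i
    cases i with
    | inl i => exact congrFun c i
    | inr i => exact congrFun d i

theorem Raw.eqs {ι : Type} [Fintype ι] {f g : ι → (α → ℕ) → ℤ} (hf : ∀ i, PolyFn (f i))
    (hg : ∀ i, PolyFn (g i)) : Raw (fun v => ∀ i, f i v = g i v) := by
  refine (Raw.poly (PolyFn.sum Finset.univ fun i =>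
    ((hf i).sub (hg i)).mul ((hf i).sub (hg i)))).congr fun v => ?_
  rw [Finset.sum_eq_zero_iff_of_nonneg (fun i _ => mul_self_nonneg _)]
  simp [sub_eq_zero]

end

/-- Types coded by tuples of natural numbers, with single-fold set of codes. -/
class Cd (X : Type) where
  ι : Type
  fin : Fintype ι
  c : X → ι → ℕ
  inj : Function.Injective c
  raw : Raw (fun v => ∃ x, c x = v)

instance (X : Type) [Cd X] : Fintype (Cd.ι X) := Cd.fin

instance cdProd (X Y : Type) [Cd X] [Cd Y] : Cd (X × Y) where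
  ι := Cd.ι X ⊕ Cd.ι Y
  fin := inferInstance
  c := fun p => Sum.elim (Cd.c p.1) (Cd.c p.2)
  inj := by
    rintro ⟨a, b⟩ ⟨c, d⟩ h
    have h1 : Cd.c a = Cd.c c := funext fun i => congrFun h (Sum.inl i)
    have h2 : Cd.c b = Cd.c d := funext fun i => congrFun h (Sum.inr i)
    rw [Cd.inj h1, Cd.inj h2]
  raw := by
    refine (((Cd.raw (X := X)).ren Sum.inl).and ((Cd.raw (X := Y)).ren Sum.inr)).congr fun v => ?_
    constructor
    · rintro ⟨⟨x, hx⟩, ⟨y, hy⟩⟩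
      refine ⟨(x, y), ?_⟩
      funext i
      cases i with
      | inl i => exact congrFun hx i
      | inr i => exact congrFun hy i
    · rintro ⟨⟨x, y⟩, rfl⟩
      exact ⟨⟨x, rfl⟩, ⟨y, rfl⟩⟩

instance cdFun (α : Type) [Fintype α] : Cd (α → ℕ) where
  ι := α
  fin := inferInstance
  c := id
  inj := Function.injective_id
  raw := (Raw.poly (PolyFn.const 0)).congr fun v => by simp

instance cdNat : Cd ℕ where
  ι := Unit
  fin := inferInstance
  c := fun n _ => n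
  inj := fun _ _ h => congrFun h ()
  raw := (Raw.poly (PolyFn.const 0)).congr fun v => by
    simp only [true_iff]; exact ⟨v (), rfl⟩

/-- Single-fold predicates on coded types. -/
@[fun_prop] def SF {X : Type} [Cd X] (P : X → Prop) : Prop :=
  Raw (fun v => ∃ x, Cd.c x = v ∧ P x)

/-- Functions with single-fold graph. -/
@[fun_prop] def SFn {X Y : Type} [Cd X] [Cd Y] (f : X → Y) : Prop :=
  SF (fun p : X × Y => f p.1 = p.2)

section
variable {X Y Z : Type} [Cd X] [Cd Y] [Cd Z]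

theorem SF.congr {P Q : X → Prop} (h : SF P) (e : ∀ x, P x ↔ Q x) : SF Q := by
  have : P = Q := funext fun v => propext (e v)
  rwa [← this]

theorem SFn.congr {f g : X → Y} (h : SFn f) (e : ∀ x, f x = g x) : SFn g := by
  have : f = g := funext e
  rwa [← this]

theorem SF.graph {P : X × Y → Prop} {f : X → Y} (h : SF P) (e : ∀ p, P p ↔ f p.1 = p.2) :
    SFn f := h.congr e

theorem SF.ofRaw {P : X → Prop} {S : (Cd.ι X → ℕ) → Prop} (h : Raw S)
    (e : ∀ x, S (Cd.c x) ↔ P x) : SF P := by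
  refine ((Cd.raw (X := X)).and h).congr fun v => ?_
  constructor
  · rintro ⟨⟨x, rfl⟩, h⟩; exact ⟨x, rfl, (e x).1 h⟩
  · rintro ⟨x, rfl, h⟩; exact ⟨⟨x, rfl⟩, (e x).2 h⟩

theorem SF.iff_code {P : X → Prop} (x : X) : (∃ y, Cd.c y = Cd.c x ∧ P y) ↔ P x := by
  constructor
  · rintro ⟨y, h, hy⟩; rwa [← Cd.inj h]
  · intro h; exact ⟨x, rfl, h⟩

@[fun_prop] theorem SF.and {P Q : X → Prop} (hP : SF P) (hQ : SF Q) :
    SF (fun x => P x ∧ Q x) :=
  SF.ofRaw (Raw.and hP hQ) fun x => by rw [SF.iff_code, SF.iff_code]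

theorem SF.xor {P Q : X → Prop} (hP : SF P) (hQ : SF Q) (hd : ∀ x, P x → Q x → False) :
    SF (fun x => P x ∨ Q x) := by
  refine SF.ofRaw (Raw.xor hP hQ ?_) fun x => by rw [SF.iff_code, SF.iff_code]
  rintro v ⟨x, rfl, hx⟩ h
  exact hd x hx ((SF.iff_code x).1 h)

theorem SF.ex {R : X → Y → Prop} (h : SF (fun p : X × Y => R p.1 p.2))
    (hu : ∀ x y y', R x y → R x y' → y = y') : SF (fun x => ∃ y, R x y) := by
  have h' : Raw (fun v : Cd.ι X ⊕ Cd.ι Y → ℕ =>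
      ∃ p : X × Y, Sum.elim (Cd.c p.1) (Cd.c p.2) = v ∧ R p.1 p.2) := h
  have inj : ∀ (a : X) (b : Y) v u, Sum.elim (Cd.c a) (Cd.c b) = Sum.elim v u →
      Cd.c a = v ∧ Cd.c b = u := fun a b v u e =>
    ⟨funext fun i => congrFun e (Sum.inl i), funext fun i => congrFun e (Sum.inr i)⟩
  refine SF.ofRaw (h'.ex ?_) fun x => ?_
  · rintro v u u' ⟨⟨a, b⟩, e, r⟩ ⟨⟨a', b'⟩, e', r'⟩
    obtain ⟨e1, e2⟩ := inj _ _ _ _ e
    obtain ⟨e3, e4⟩ := inj _ _ _ _ e'
    have : a = a' := Cd.inj (e1.trans e3.symm)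
    subst this
    have : b = b' := hu _ _ _ r r'
    subst this
    exact e2.symm.trans e4
  · constructor
    · rintro ⟨u, ⟨a, b⟩, e, r⟩
      obtain ⟨e1, -⟩ := inj _ _ _ _ e
      have : a = x := Cd.inj e1
      subst this
      exact ⟨b, r⟩
    · rintro ⟨y, r⟩
      exact ⟨Cd.c y, (x, y), rfl, r⟩

theorem SF.pull {P : Y → Prop} (h : SF P) (f : X → Y) (g : Cd.ι Y → Cd.ι X)
    (e : ∀ x, Cd.c x ∘ g = Cd.c (f x)) : SF (fun x => P (f x)) :=
  SF.ofRaw (Raw.ren h g) fun x => by rw [e, SF.iff_code]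

theorem SF.diag : SF (fun p : X × X => p.1 = p.2) := by
  refine SF.ofRaw (Raw.eqs (ι := Cd.ι X) (α := Cd.ι X ⊕ Cd.ι X)
    (fun i => PolyFn.proj (Sum.inl i)) (fun i => PolyFn.proj (Sum.inr i))) fun p => ?_
  constructor
  · intro h
    apply Cd.inj
    funext i
    exact_mod_cast h i
  · intro h i
    change ((Cd.c p.1 i : ℕ) : ℤ) = (Cd.c p.2 i : ℕ)
    rw [h]

theorem SFn.coord (f : X → Y) (g : Cd.ι Y → Cd.ι X) (e : ∀ x, Cd.c x ∘ g = Cd.c (f x)) :
    SFn f := by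
  refine (SF.diag (X := Y)).pull (fun p : X × Y => (f p.1, p.2)) (Sum.map g id) fun p => ?_
  funext i
  cases i with
  | inl i => exact congrFun (e p.1) i
  | inr i => rfl

@[fun_prop] theorem SFn.id' : SFn (fun x : X => x) := SFn.coord _ id fun _ => rfl

theorem SFn.fst0 : SFn (fun p : X × Y => p.1) := SFn.coord _ Sum.inl fun _ => rfl
theorem SFn.snd0 : SFn (fun p : X × Y => p.2) := SFn.coord _ Sum.inr fun _ => rfl

@[fun_prop] theorem SFn.const (y : Y) : SFn (fun _ : X => y) := by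
  refine SF.ofRaw (Raw.eqs (ι := Cd.ι Y) (α := Cd.ι X ⊕ Cd.ι Y)
    (fun i => PolyFn.const (Cd.c y i)) (fun i => PolyFn.proj (Sum.inr i))) fun p => ?_
  constructor
  · intro h
    apply Cd.inj
    funext i
    exact_mod_cast h i
  · intro h i
    change ((Cd.c y i : ℕ) : ℤ) = (Cd.c p.2 i : ℕ)
    rw [← h]

@[fun_prop] theorem SF.comp {P : Y → Prop} {f : X → Y} (hP : SF P) (hf : SFn f) :
    SF (fun x => P (f x)) := by
  have h2 : SF (fun p : X × Y => P p.2) := hP.pull _ Sum.inr fun _ => rfl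
  refine (SF.ex (R := fun x y => f x = y ∧ P y) (SF.and hf h2) ?_).congr fun x => by simp
  rintro x y y' ⟨rfl, -⟩ ⟨rfl, -⟩; rfl

@[fun_prop] theorem SFn.pair {f : X → Y} {g : X → Z} (hf : SFn f) (hg : SFn g) :
    SFn (fun x => (f x, g x)) := by
  have h1 : SF (fun p : X × (Y × Z) => f p.1 = p.2.1) :=
    SF.pull hf (fun p : X × (Y × Z) => (p.1, p.2.1)) (Sum.map id Sum.inl) fun p => by
      funext i; cases i <;> rfl
  have h2 : SF (fun p : X × (Y × Z) => g p.1 = p.2.2) :=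
    SF.pull hg (fun p : X × (Y × Z) => (p.1, p.2.2)) (Sum.map id Sum.inr) fun p => by
      funext i; cases i <;> rfl
  exact (h1.and h2).congr fun p => by simp [Prod.ext_iff]

@[fun_prop] theorem SFn.comp {g : Y → Z} {f : X → Y} (hg : SFn g) (hf : SFn f) :
    SFn (fun x => g (f x)) := by
  have h1 : SFn (fun p : X × Z => f p.1) := by
    have : SF (fun p : (X × Z) × Y => f p.1.1 = p.2) :=
      SF.pull hf (fun p : (X × Z) × Y => (p.1.1, p.2)) (Sum.map Sum.inl id) fun p => by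
        funext i; cases i <;> rfl
    exact this
  exact SF.comp hg (h1.pair SFn.snd0)

@[fun_prop] theorem SFn.fst {f : X → Y × Z} (hf : SFn f) : SFn (fun x => (f x).1) :=
  SFn.comp SFn.fst0 hf
@[fun_prop] theorem SFn.snd {f : X → Y × Z} (hf : SFn f) : SFn (fun x => (f x).2) :=
  SFn.comp SFn.snd0 hf

@[fun_prop] theorem SF.eq {f g : X → Y} (hf : SFn f) (hg : SFn g) : SF (fun x => f x = g x) :=
  SF.comp (P := fun p : Y × Y => p.1 = p.2) SF.diag (hf.pair hg)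

theorem SF.tru : SF (fun _ : X => True) :=
  (SF.eq (SFn.const (0 : ℕ)) (SFn.const 0)).congr fun _ => by simp

theorem SF.fal : SF (fun _ : X => False) :=
  (SF.eq (SFn.const (0 : ℕ)) (SFn.const 1)).congr fun _ => by simp

@[fun_prop] theorem SF.const (p : Prop) : SF (fun _ : X => p) := by
  by_cases h : p
  · exact SF.tru.congr fun _ => by simp [h]
  · exact SF.fal.congr fun _ => by simp [h]

theorem SF.all {ι : Type} (s : Finset ι) {P : ι → X → Prop} (h : ∀ i, SF (P i)) :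
    SF (fun x => ∀ i ∈ s, P i x) := by
  classical
  induction s using Finset.induction_on with
  | empty => exact SF.tru.congr fun _ => by simp
  | insert a s ha ih => exact ((h a).and ih).congr fun x => by simp

theorem SFn.ite {c : X → Prop} [DecidablePred c] {f g : X → Y} (hc : SF c)
    (hn : SF (fun x => ¬ c x)) (hf : SFn f) (hg : SFn g) :
    SFn (fun x => if c x then f x else g x) := by
  have h1 : SF (fun p : X × Y => c p.1 ∧ f p.1 = p.2) := SF.and (hc.comp SFn.fst0) hf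
  have h2 : SF (fun p : X × Y => ¬ c p.1 ∧ g p.1 = p.2) := SF.and (hn.comp SFn.fst0) hg
  refine (h1.xor h2 fun p a b => b.1 a.1).congr fun p => ?_
  by_cases h : c p.1 <;> simp [h]

theorem SFn.app {α : Type} [Fintype α] (i : α) : SFn (fun v : α → ℕ => v i) :=
  SFn.coord _ (fun _ => i) fun _ => rfl

theorem SFn.code (i : Cd.ι X) : SFn (fun x : X => Cd.c x i) :=
  SFn.coord _ (fun _ => i) fun _ => rfl

/-- Coding through an injection with single-fold range. -/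
@[reducible] def Cd.ofInj {W : Type} (e : W → X) (he : Function.Injective e)
    (hr : SF (fun x => ∃ w, e w = x)) : Cd W where
  ι := Cd.ι X
  fin := inferInstance
  c := fun w => Cd.c (e w)
  inj := Cd.inj.comp he
  raw := Raw.congr hr fun v => by
    constructor
    · rintro ⟨x, rfl, w, rfl⟩; exact ⟨w, rfl⟩
    · rintro ⟨w, rfl⟩; exact ⟨e w, rfl, w, rfl⟩

theorem SFn.of_inj {e : Y → Z} (he : Function.Injective e) (hs : SFn e) {f : X → Y}
    (hf : SFn (fun x => e (f x))) : SFn f := by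
  have : SF (fun p : X × Y => e (f p.1) = e p.2) :=
    SF.eq (hf.comp SFn.fst0) (hs.comp SFn.snd0)
  exact this.congr fun p => he.eq_iff

end

end Vale.Agent.P345
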