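import Vale.Agent.P345.Pow

namespace Vale.Agent.P345

open Finset

theorem dig_lt {u : ℕ} {d : ℕ → ℕ} (K : ℕ) (h : ∀ i < K, d i < u) :
    ∑ i ∈ range K, d i * u ^ i < u ^ K := by
  induction K with
  | zero => simp
  | succ K ih =>
    rw [sum_range_succ, pow_succ]
    have h1 := ih fun i hi => h i (by omega)
    have h2 : (d K + 1) * u ^ K ≤ u * u ^ K := Nat.mul_le_mul_right _ (h K (by omega))
    nlinarith

theorem dig_get {u : ℕ} (j : ℕ) : ∀ {d : ℕ → ℕ} (K : ℕ), (∀ i < K, d i < u) → j < K →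
    (∑ i ∈ range K, d i * u ^ i) / u ^ j % u = d j := by
  induction j with
  | zero =>
    intro d K h hj
    obtain ⟨K, rfl⟩ : ∃ K', K = K' + 1 := ⟨K - 1, by omega⟩
    rw [sum_range_succ']
    have : ∑ i ∈ range K, d (i + 1) * u ^ (i + 1) = u * ∑ i ∈ range K, d (i + 1) * u ^ i := by
      rw [mul_sum]; exact sum_congr rfl fun i _ => by ring
    rw [this]; simp [Nat.mod_eq_of_lt (h 0 hj)]
  | succ j ih =>
    intro d K h hj
    obtain ⟨K, rfl⟩ : ∃ K', K = K' + 1 := ⟨K - 1, by omega⟩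
    rw [sum_range_succ']
    have : ∑ i ∈ range K, d (i + 1) * u ^ (i + 1) = u * ∑ i ∈ range K, d (i + 1) * u ^ i := by
      rw [mul_sum]; exact sum_congr rfl fun i _ => by ring
    have h0 := h 0 (by omega)
    rw [this, pow_succ', ← Nat.div_div_eq_div_mul, pow_zero, mul_one,
      Nat.mul_add_div (by omega), Nat.div_eq_of_lt h0, add_zero]
    exact ih (d := fun i => d (i + 1)) K (fun i hi => h _ (by omega)) (by omega)

theorem dig_sum (B c K : ℕ) : c % B ^ K = ∑ i ∈ range K, (c / B ^ i % B) * B ^ i := by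
  induction K with
  | zero => simp [Nat.mod_one]
  | succ K ih => rw [Nat.mod_pow_succ, sum_range_succ, ih, mul_comm]

def hw (n : ℕ) : ℕ := (Nat.digits 2 n).sum

theorem hw_zero : hw 0 = 0 := by simp [hw]

theorem hw_rec (n : ℕ) : hw n = n % 2 + hw (n / 2) := by
  rcases Nat.eq_zero_or_pos n with rfl | h
  · simp [hw]
  · rw [hw, Nat.digits_def' (by norm_num) h]; simp [hw]

theorem hw_add (L : ℕ) : ∀ x y, x < 2 ^ L → hw (x + 2 ^ L * y) = hw x + hw y := by
  induction L with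
  | zero => intro x y h; have : x = 0 := by omega
            subst this; simp [hw_zero]
  | succ L ih =>
    intro x y h
    rw [hw_rec, hw_rec x]
    have e : 2 ^ (L + 1) * y = 2 * (2 ^ L * y) := by ring
    rw [e, show (x + 2 * (2 ^ L * y)) / 2 = x / 2 + 2 ^ L * y by omega, ih _ _ (by omega)]
    omega

theorem hw_compl (w : ℕ) : ∀ c, c < 2 ^ w → hw (2 ^ w - 1 - c) + hw c = w := by
  induction w with
  | zero => intro c h; have : c = 0 := by omega
            subst this; simp [hw_zero]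
  | succ w ih =>
    intro c h
    rw [hw_rec, hw_rec c]
    have := ih (c / 2) (by omega)
    rw [show (2 ^ (w + 1) - 1 - c) / 2 = 2 ^ w - 1 - c / 2 by omega]
    omega

theorem hw_sum (L : ℕ) (d : ℕ → ℕ) (K : ℕ) (h : ∀ i < K, d i < 2 ^ L) :
    hw (∑ i ∈ range K, d i * (2 ^ L) ^ i) = ∑ i ∈ range K, hw (d i) := by
  induction K with
  | zero => simp [hw_zero]
  | succ K ih =>
    have h' : ∀ i < K, d i < 2 ^ L := fun i hi => h i (by omega)
    have h1 := dig_lt K h'
    rw [sum_range_succ, sum_range_succ, ← ih h', ← pow_mul, mul_comm (d K)]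
    rw [← pow_mul] at h1
    exact hw_add _ _ _ h1

theorem hw_delta (w a : ℕ) (h : a ≤ 2 ^ w) :
    (2 ^ w - 1) * (2 ^ w + 1 - a) < 2 ^ (2 * w) ∧
    hw ((2 ^ w - 1) * (2 ^ w + 1 - a)) = if a = 0 then 2 * w else w := by
  have hp : 0 < 2 ^ w := by positivity
  have e2 : 2 ^ (2 * w) = 2 ^ w * 2 ^ w := by rw [two_mul, pow_add]
  obtain ⟨s, hs⟩ : ∃ s, 2 ^ w = s + 1 := ⟨2 ^ w - 1, by omega⟩
  split_ifs with h0
  · subst h0
    have : (2 ^ w - 1) * (2 ^ w + 1 - 0) = 2 ^ (2 * w) - 1 - 0 := by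
      rw [e2, hs]; simp only [Nat.add_sub_cancel, Nat.sub_zero]
      apply Nat.eq_sub_of_add_eq; ring
    rw [this]
    have := hw_compl (2 * w) 0 (by positivity)
    rw [hw_zero] at this
    exact ⟨by have : 0 < 2 ^ (2 * w) := by positivity
              omega, this⟩
  · obtain ⟨b, hb⟩ : ∃ b, 2 ^ w + 1 - a = b + 1 := ⟨2 ^ w - a, by omega⟩
    have hb' : b < 2 ^ w := by omega
    have : (2 ^ w - 1) * (b + 1) = (2 ^ w - 1 - b) + 2 ^ w * b := by
      obtain ⟨r, hr⟩ : ∃ r, s = b + r := ⟨s - b, by omega⟩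
      rw [hs, hr]; simp only [Nat.add_sub_cancel, Nat.add_sub_cancel_left]; ring
    rw [hb, this, hw_add _ _ _ (by omega), hw_compl _ _ hb', e2]
    refine ⟨?_, rfl⟩
    have : 2 ^ w * (b + 1) ≤ 2 ^ w * 2 ^ w := Nat.mul_le_mul_left _ hb'
    rw [mul_add] at this; omega

section
variable {X : Type} [Cd X]

theorem SFn.choose {f g : X → ℕ} (hf : SFn f) (hg : SFn g) :
    SFn (fun x => (f x + g x).choose (g x)) := by
  have : SFn (fun x => (2 ^ (f x + g x) + 1 + 1) ^ (f x + g x) / (2 ^ (f x + g x) + 1) ^ g x %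
    (2 ^ (f x + g x) + 1)) := by fun_prop
  refine this.congr fun x => ?_
  rw [add_pow]
  have := dig_get (u := 2 ^ (f x + g x) + 1) (g x) (d := fun i => (f x + g x).choose i)
    (f x + g x + 1) (fun i _ => Nat.lt_succ_of_le (Nat.choose_le_two_pow _ _)) (by omega)
  rw [← this]
  congr 2
  exact sum_congr rfl fun i _ => by simp [mul_comm]

theorem hw_eq (n : ℕ) : padicValNat 2 ((n + n).choose n) = hw n := by
  have := sub_one_mul_padicValNat_choose_eq_sub_sum_digits' (p := 2) (k := n) (n := n)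
  have h2 : hw (n + n) = hw n := by
    rw [hw_rec, show (n + n) / 2 = n by omega]; omega
  change _ = hw n + hw n - hw (n + n) at this
  omega

theorem val_iff (c e : ℕ) (hc : c ≠ 0) : (∃ r, c = 2 ^ e * (2 * r + 1)) ↔ padicValNat 2 c = e := by
  constructor
  · rintro ⟨r, rfl⟩
    rw [padicValNat.mul (by positivity) (by omega), padicValNat.prime_pow,
      padicValNat.eq_zero_of_not_dvd (by omega)]; rfl
  · rintro rfl
    obtain ⟨k, m, ⟨r, rfl⟩, rfl⟩ := Nat.exists_eq_two_pow_mul_odd hc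
    refine ⟨r, ?_⟩
    rw [padicValNat.mul (by positivity) (by omega), padicValNat.prime_pow,
      padicValNat.eq_zero_of_not_dvd (by omega)]; rfl

theorem hw0 : SFn hw := by
  have h1 : SFn (fun q : (ℕ × ℕ) × ℕ => (q.1.1 + q.1.1).choose q.1.1) :=
    SFn.choose (by fun_prop) (by fun_prop)
  have : SF (fun p : ℕ × ℕ => ∃ r, (p.1 + p.1).choose p.1 = 2 ^ p.2 * (2 * r + 1)) := by
    refine SF.ex (SF.eq h1 (by fun_prop)) fun p r r' a b => ?_
    have := Nat.eq_of_mul_eq_mul_left (by positivity) (a.symm.trans b)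
    omega
  refine this.graph fun p => ?_
  rw [val_iff _ _ (Nat.choose_pos (by omega)).ne', hw_eq]

@[fun_prop] theorem SFn.hw {f : X → ℕ} (hf : SFn f) : SFn (fun x => hw (f x)) := hw0.comp hf

def gs (e y M : ℕ) : ℕ := ∑ j ∈ range M, j ^ e * (y + 2) ^ j

theorem gs_rec (e y M : ℕ) : (y + 1) * gs e y M +
    (y + 2) * ∑ r ∈ range e, e.choose r * gs r y M + 0 ^ e = M ^ e * (y + 2) ^ M := by
  induction M with
  | zero => simp [gs]
  | succ M ih =>
    have e1 : ∀ r, gs r y (M + 1) = gs r y M + M ^ r * (y + 2) ^ M := fun r => sum_range_succ _ _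
    simp only [e1, mul_add, sum_add_distrib]
    have e2 : (M + 1) ^ e = ∑ r ∈ range e, e.choose r * M ^ r + M ^ e := by
      rw [add_pow, sum_range_succ]; simp [mul_comm]
    have e3 : ∑ r ∈ range e, e.choose r * (M ^ r * (y + 2) ^ M) =
        (∑ r ∈ range e, e.choose r * M ^ r) * (y + 2) ^ M := by
      rw [sum_mul]; exact sum_congr rfl fun r _ => by ring
    rw [e2, e3, pow_succ]
    linear_combination ih

theorem gs_sf (e : ℕ) : SFn (fun p : ℕ × ℕ => gs e p.1 p.2) := by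
  induction e using Nat.strong_induction_on with
  | _ e ih =>
    have h1 : SFn (fun p : ℕ × ℕ => ∑ r ∈ range e, e.choose r * gs r p.1 p.2) :=
      SFn.sum _ fun r hr => (SFn.const _).mul (ih r (mem_range.1 hr))
    have : SFn (fun p : ℕ × ℕ => (p.2 ^ e * (p.1 + 2) ^ p.2 - 0 ^ e -
        (p.1 + 2) * ∑ r ∈ range e, e.choose r * gs r p.1 p.2) / (p.1 + 1)) :=
      SFn.div (SFn.sub (by fun_prop) (SFn.mul (by fun_prop) h1)) (by fun_prop)
    refine this.congr fun p => ?_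
    rw [← gs_rec, Nat.add_sub_cancel, Nat.add_sub_cancel, Nat.mul_div_cancel_left _ (by omega)]

open MvPolynomial in
theorem box_sum {α : Type} [Fintype α] {k : ℕ} {v : X → α → ℕ} (hv : ∀ a, SFn (fun z => v z a))
    {M : X → ℕ} (hM : SFn M) {y : Fin k → X → ℕ} (hy : ∀ l, SFn (y l))
    (q : MvPolynomial (α ⊕ Fin k) ℤ) :
    SFn (fun z => ∑ t : Fin k → Fin (M z),
      eval (fun i => ((Sum.elim (v z) (fun l => (t l : ℕ)) i : ℕ) : ℤ)) q *
        ((∏ l, (y l z + 2) ^ (t l : ℕ) : ℕ) : ℤ)) := by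
  induction q using MvPolynomial.induction_on' with
  | add p q hp hq =>
    exact (hp.addZ hq).congr fun z => by simp only [map_add, add_mul, sum_add_distrib]
  | monomial u a =>
    have h1 : SFn (fun z => ∏ i, v z i ^ u (Sum.inl i)) :=
      SFn.prod _ fun i _ => (hv i).powc _
    have h2 : SFn (fun z => ∏ l, gs (u (Sum.inr l)) (y l z) (M z)) :=
      SFn.prod _ fun l _ => (gs_sf _).comp ((hy l).pair hM)
    refine ((SFn.const a).mulZ (h1.mul h2).castZ).congr fun z => ?_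
    have e : ∏ l, gs (u (Sum.inr l)) (y l z) (M z) = ∑ t : Fin k → Fin (M z),
        ∏ l, ((t l : ℕ) ^ u (Sum.inr l) * (y l z + 2) ^ (t l : ℕ)) := by
      simp only [gs, ← Fin.sum_univ_eq_sum_range (fun j => j ^ u (Sum.inr _) * (y _ z + 2) ^ j)]
      rw [prod_univ_sum, Fintype.piFinset_univ]
    rw [e]
    simp only [eval_monomial]
    push_cast
    rw [mul_sum, mul_sum]
    refine sum_congr rfl fun t _ => ?_
    rw [Finsupp.prod_fintype _ _ (by simp), Fintype.prod_sum_type, prod_mul_distrib]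
    simp only [Sum.elim_inl, Sum.elim_inr]
    ring

open MvPolynomial in
theorem box_bound {α γ : Type} {v : X → α → ℕ} (hv : ∀ a, SFn (fun z => v z a))
    {M : X → ℕ} (hM : SFn M) (q : MvPolynomial (α ⊕ γ) ℤ) :
    ∃ Bd : X → ℕ, SFn Bd ∧ ∀ z (t : γ → ℕ), (∀ l, t l ≤ M z) →
      (eval (fun i => ((Sum.elim (v z) t i : ℕ) : ℤ)) q).natAbs ≤ Bd z := by
  induction q using MvPolynomial.induction_on with
  | C a => exact ⟨fun _ => a.natAbs, SFn.const _, fun z t _ => by simp⟩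
  | add p q hp hq =>
    obtain ⟨B1, h1, h2⟩ := hp
    obtain ⟨B2, h3, h4⟩ := hq
    refine ⟨fun z => B1 z + B2 z, h1.add h3, fun z t ht => ?_⟩
    rw [map_add]
    exact (Int.natAbs_add_le _ _).trans (add_le_add (h2 z t ht) (h4 z t ht))
  | mul_X p i hp =>
    obtain ⟨B1, h1, h2⟩ := hp
    cases i with
    | inl a =>
      refine ⟨fun z => B1 z * v z a, h1.mul (hv a), fun z t ht => ?_⟩
      rw [map_mul, Int.natAbs_mul, eval_X]
      exact Nat.mul_le_mul (h2 z t ht) (by simp)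
    | inr l =>
      refine ⟨fun z => B1 z * M z, h1.mul hM, fun z t ht => ?_⟩
      rw [map_mul, Int.natAbs_mul, eval_X]
      exact Nat.mul_le_mul (h2 z t ht) (by simpa using ht l)

theorem hw_fin {m k L : ℕ} (d : (Fin k → Fin m) → ℕ) (h : ∀ t, d t < 2 ^ L) :
    hw (∑ t, d t * ∏ l : Fin k, ((2 ^ L) ^ m ^ (l : ℕ)) ^ (t l : ℕ)) = ∑ t, hw (d t) := by
  let d' : ℕ → ℕ := fun i => if hi : i < m ^ k then d (finFunctionFinEquiv.symm ⟨i, hi⟩) else 0
  have e1 : ∀ g : ℕ → ℕ → ℕ, ∑ i ∈ range (m ^ k), g (d' i) i =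
      ∑ t, g (d t) (finFunctionFinEquiv t) := by
    intro g
    rw [← Fin.sum_univ_eq_sum_range (fun i => g (d' i) i)]
    refine (Fintype.sum_equiv finFunctionFinEquiv _ _ fun t => ?_).symm
    simp only [d', Fin.is_lt, dif_pos, Fin.eta, Equiv.symm_apply_apply]
  have := hw_sum L d' (m ^ k) (fun i hi => by simp only [d', dif_pos hi]; exact h _)
  rw [e1 (fun a i => a * (2 ^ L) ^ i), e1 (fun a _ => hw a)] at this
  rw [← this]
  congr 1
  refine sum_congr rfl fun t _ => ?_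
  rw [finFunctionFinEquiv_apply, ← prod_pow_eq_pow_sum]
  congr 1
  exact prod_congr rfl fun l _ => by rw [← pow_mul, mul_comm]

open MvPolynomial in
theorem count_fin {α : Type} [Fintype α] {k : ℕ} {v : X → α → ℕ}
    (hv : ∀ a, SFn (fun z => v z a)) {M : X → ℕ} (hM : SFn M)
    (q : MvPolynomial (α ⊕ Fin k) ℤ) :
    SFn (fun z => (univ.filter fun t : Fin k → Fin (M z + 1) =>
      eval (fun i => ((Sum.elim (v z) (fun l => (t l : ℕ)) i : ℕ) : ℤ)) q = 0).card) := by
  obtain ⟨Bd, hB, hb⟩ := box_bound hv hM (q * q)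
  let w : X → ℕ := fun z => Bd z + 1
  have hw' : SFn w := by simp only [w]; fun_prop
  let y : Fin k → X → ℕ := fun l z => (2 ^ (2 * w z)) ^ (M z + 1) ^ (l : ℕ) - 2
  have hy : ∀ l, SFn (y l) := fun l => by simp only [y]; fun_prop
  have hy2 : ∀ l z, y l z + 2 = (2 ^ (2 * w z)) ^ (M z + 1) ^ (l : ℕ) := fun l z => by
    apply Nat.sub_add_cancel
    rw [← pow_mul]
    calc 2 = 2 ^ 1 := rfl
      _ ≤ _ := Nat.pow_le_pow_right (by norm_num) (Nat.mul_pos (by simp only [w]; omega)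
        (by positivity))
  have hM1 : SFn (fun z => M z + 1) := by fun_prop
  have s1 := box_sum hv hM1 hy 1
  have s2 := box_sum hv hM1 hy (q * q)
  have s3 := ((((SFn.const 2).pow hw').sub (SFn.const 1)).castZ.mulZ
    (((((SFn.const 2).pow hw').add (SFn.const 1)).castZ.mulZ s1).subZ s2)).toNat
  refine ((s3.hw.div hw').sub (hM1.powc k)).congr fun z => ?_
  set ev : (Fin k → Fin (M z + 1)) → ℤ := fun t =>
    eval (fun i => ((Sum.elim (v z) (fun l => (t l : ℕ)) i : ℕ) : ℤ)) q with hev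
  have hle : ∀ t, (ev t * ev t).natAbs ≤ 2 ^ w z := fun t => by
    have := hb z (fun l => (t l : ℕ)) (fun l => Nat.lt_succ_iff.1 (t l).2)
    rw [map_mul] at this
    exact this.trans ((Nat.le_succ _).trans Nat.lt_two_pow_self.le)
  have e1 : (((2 ^ w z - 1 : ℕ) : ℤ) * (((2 ^ w z + 1 : ℕ) : ℤ) *
      (∑ t : Fin k → Fin (M z + 1),
      eval (fun i => ((Sum.elim (v z) (fun l => (t l : ℕ)) i : ℕ) : ℤ)) 1 *
        ((∏ l, (y l z + 2) ^ (t l : ℕ) : ℕ) : ℤ)) - ∑ t : Fin k → Fin (M z + 1),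
      eval (fun i => ((Sum.elim (v z) (fun l => (t l : ℕ)) i : ℕ) : ℤ)) (q * q) *
        ((∏ l, (y l z + 2) ^ (t l : ℕ) : ℕ) : ℤ))).toNat =
      ∑ t : Fin k → Fin (M z + 1), ((2 ^ w z - 1) * (2 ^ w z + 1 - (ev t * ev t).natAbs)) *
        ∏ l : Fin k, ((2 ^ (2 * w z)) ^ (M z + 1) ^ (l : ℕ)) ^ (t l : ℕ) := by
    rw [← Int.toNat_natCast (∑ t, _)]
    congr 1
    rw [mul_sum, ← sum_sub_distrib, mul_sum, Nat.cast_sum]
    refine sum_congr rfl fun t _ => ?_
    simp only [hy2, map_one, map_mul]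
    rw [Nat.cast_mul, Nat.cast_mul, Nat.cast_sub ((hle t).trans (Nat.le_succ _)),
      Int.natAbs_of_nonneg (mul_self_nonneg _)]
    simp only [hev, Nat.succ_eq_add_one]
    ring
  beta_reduce
  rw [e1, hw_fin _ (fun t => (hw_delta _ _ (hle t)).1)]
  simp only [fun t => (hw_delta _ _ (hle t)).2]
  have e2 : ∀ t, (if (ev t * ev t).natAbs = 0 then 2 * w z else w z) =
      w z + w z * (if ev t = 0 then 1 else 0) := fun t => by
    by_cases h : ev t = 0 <;> simp [h, two_mul]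
  simp only [e2, sum_add_distrib, ← mul_sum, sum_const, card_univ, Fintype.card_fun,
    Fintype.card_fin, smul_eq_mul, sum_boole, Nat.cast_id]
  rw [mul_comm _ (w z), ← mul_add, Nat.mul_div_cancel_left _ (by simp only [w]; omega),
    Nat.add_sub_cancel_left]

theorem count_gen {α γ : Type} [Fintype α] [Fintype γ] {v : X → α → ℕ}
    (hv : ∀ a, SFn (fun z => v z a)) {M : X → ℕ} (hM : SFn M)
    {f : (α ⊕ γ → ℕ) → ℤ} (hf : PolyFn f) :
    SFn (fun z => {t : γ → ℕ | (∀ l, t l ≤ M z) ∧ f (Sum.elim (v z) t) = 0}.ncard) := by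
  let e := Fintype.equivFin γ
  obtain ⟨q, hq⟩ := hf.ren (Sum.map id e)
  refine (count_fin hv hM q).congr fun z => ?_
  rw [← Set.ncard_coe_finset]
  let φ : (Fin (Fintype.card γ) → Fin (M z + 1)) → γ → ℕ := fun t l => t (e l)
  have hφ : Function.Injective φ := fun a b h => by
    funext i
    apply Fin.ext
    simpa [φ] using congrFun h (e.symm i)
  rw [← Set.ncard_image_of_injective _ hφ]
  congr 1
  have e2 : ∀ t : Fin (Fintype.card γ) → Fin (M z + 1),
      Sum.elim (v z) (fun l => (t l : ℕ)) ∘ Sum.map id e = Sum.elim (v z) (φ t) := fun t => by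
    funext i; cases i <;> rfl
  ext t
  simp only [coe_filter, mem_univ, true_and, Set.mem_image, Set.mem_setOf_eq, ← hq, e2]
  constructor
  · rintro ⟨s, hs, rfl⟩
    exact ⟨fun l => Nat.lt_succ_iff.1 (s _).2, hs⟩
  · rintro ⟨h1, h2⟩
    have : φ (fun i => ⟨t (e.symm i), Nat.lt_succ_of_le (h1 _)⟩) = t := by
      funext l; simp [φ]
    exact ⟨fun i => ⟨t (e.symm i), Nat.lt_succ_of_le (h1 _)⟩, by rw [this]; exact h2, this⟩

theorem SF.ball {P : X → ℕ → Prop} (h : SF (fun p : X × ℕ => P p.1 p.2)) :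
    SF (fun p : X × ℕ => ∀ i < p.2, P p.1 i) := by
  have h1 : SF (fun p : (X × ℕ) × ℕ => p.2 < p.1.2 ∧ P p.1.1 p.2) :=
    SF.and (by fun_prop) (h.comp (f := fun p : (X × ℕ) × ℕ => (p.1.1, p.2)) (by fun_prop))
  obtain ⟨β, _, f, hf, h2, h3⟩ := h1
  let g : (Cd.ι (X × ℕ) ⊕ Unit) ⊕ β → Cd.ι (X × ℕ) ⊕ (Unit ⊕ β) := Equiv.sumAssoc _ _ _
  have eg : ∀ (z : X × ℕ) (t : Unit ⊕ β → ℕ), Sum.elim (Cd.c z) t ∘ g =
      Sum.elim (Cd.c (z, t (Sum.inl ()))) (t ∘ Sum.inr) := fun z t => by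
    funext i; rcases i with (i | i) | i <;> rfl
  let S : X × ℕ → ℕ → Set (Unit ⊕ β → ℕ) := fun z M =>
    {t | (∀ l, t l ≤ M) ∧ f (Sum.elim (Cd.c z) t ∘ g) = 0}
  have hN : SFn (fun q : (X × ℕ) × ℕ => (S q.1 q.2).ncard) :=
    count_gen (v := fun q : (X × ℕ) × ℕ => Cd.c q.1) (fun a => (SFn.code a).comp SFn.fst0)
      SFn.snd0 (hf.ren g)
  have h2' : ∀ (z : X × ℕ) (i : ℕ), (i < z.2 ∧ P z.1 i) ↔
      ∃ t, f (Sum.elim (Cd.c (z, i)) t) = 0 := fun z i => by
    rw [← h2]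
    exact (SF.iff_code (P := fun p : (X × ℕ) × ℕ => p.2 < p.1.2 ∧ P p.1.1 p.2) (z, i)).symm
  have inj : ∀ z M, Set.InjOn (fun t : Unit ⊕ β → ℕ => t (Sum.inl ())) (S z M) := by
    rintro z M t ⟨-, a⟩ t' ⟨-, b⟩ e
    simp only at e
    rw [eg] at a b
    rw [e] at a
    have := h3 _ _ _ a b
    funext i
    cases i with
    | inl i => exact e
    | inr i => exact congrFun this i
  have card : ∀ z M, (S z M).ncard =
      ((fun t : Unit ⊕ β → ℕ => t (Sum.inl ())) '' S z M).ncard := fun z M =>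
    (Set.InjOn.ncard_image (inj z M)).symm
  have sub : ∀ z M, (fun t : Unit ⊕ β → ℕ => t (Sum.inl ())) '' S z M ⊆
      {i | i < z.2 ∧ P z.1 i} := by
    rintro z M i ⟨t, ⟨-, a⟩, rfl⟩
    rw [eg] at a
    exact (h2' _ _).2 ⟨_, a⟩
  have sub' : ∀ z M, (fun t : Unit ⊕ β → ℕ => t (Sum.inl ())) '' S z M ⊆ Set.Iio z.2 :=
    fun z M i hi => (sub z M hi).1
  have cI : ∀ n : ℕ, (Set.Iio n).ncard = n := fun n => by
    rw [← Finset.coe_range, Set.ncard_coe_finset, card_range]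
  have le : ∀ z M, (S z M).ncard ≤ z.2 := fun z M => by
    rw [card, ← cI z.2]; exact Set.ncard_le_ncard (sub' z M) (Set.finite_Iio _)
  have mono : ∀ z M M', M ≤ M' → (S z M).ncard ≤ (S z M').ncard := fun z M M' hM => by
    rw [card, card]
    refine Set.ncard_le_ncard (Set.image_mono ?_) ((Set.finite_Iio _).subset (sub' z M'))
    rintro t ⟨a, b⟩; exact ⟨fun l => (a l).trans hM, b⟩
  have s : SF (fun z : X × ℕ => ∃ M : ℕ, (S z M).ncard = z.2 ∧
      (M = 0 ∨ (0 < M ∧ (S z (M - 1)).ncard < z.2))) := by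
    refine SF.ex (SF.and (SF.eq hN (by fun_prop)) (SF.xor (by fun_prop) (SF.and (by fun_prop)
      (SF.lt (hN.comp (f := fun q : (X × ℕ) × ℕ => (q.1, q.2 - 1)) (by fun_prop))
      (by fun_prop))) fun x a b => by omega)) ?_
    rintro z M M' ⟨a, b⟩ ⟨c, d⟩
    rcases lt_trichotomy M M' with e | e | e
    · have := mono z M (M' - 1) (by omega); omega
    · exact e
    · have := mono z M' (M - 1) (by omega); omega
  refine s.congr fun z => ?_
  constructor
  · rintro ⟨M, a, -⟩ i hi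
    have := Set.eq_of_subset_of_ncard_le (sub' z M) (by rw [cI, ← card, a]) (Set.finite_Iio _)
    have hi' : i ∈ Set.Iio z.2 := hi
    rw [← this] at hi'
    exact (sub z M hi').2
  · intro hall
    have hex : ∃ M, (S z M).ncard = z.2 := by
      have : ∀ i : ℕ, ∃ t : β → ℕ, i < z.2 → f (Sum.elim (Cd.c (z, i)) t) = 0 := fun i => by
        by_cases hi : i < z.2
        · obtain ⟨t, ht⟩ := (h2' z i).1 ⟨hi, hall i hi⟩
          exact ⟨t, fun _ => ht⟩
        · exact ⟨0, fun a => absurd a hi⟩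
      choose T hT using this
      refine ⟨z.2 + ∑ i ∈ range z.2, ∑ b, T i b, le_antisymm (le _ _) ?_⟩
      rw [card]
      refine (cI z.2).symm.le.trans
        (Set.ncard_le_ncard (fun i hi => ?_) ((Set.finite_Iio _).subset (sub' _ _)))
      have hi' : i < z.2 := hi
      refine ⟨Sum.elim (fun _ => i) (T i), ⟨fun l => ?_, ?_⟩, rfl⟩
      · cases l with
        | inl l => simp only [Sum.elim_inl]; omega
        | inr l =>
          simp only [Sum.elim_inr]
          have a1 : T i l ≤ ∑ b, T i b :=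
            single_le_sum (f := fun b => T i b) (fun _ _ => Nat.zero_le _) (mem_univ l)
          have a2 : ∑ b, T i b ≤ ∑ i ∈ range z.2, ∑ b, T i b :=
            single_le_sum (f := fun i => ∑ b, T i b) (fun _ _ => Nat.zero_le _) (mem_range.2 hi')
          omega
      · rw [eg]; exact hT i hi'
    classical
    refine ⟨Nat.find hex, Nat.find_spec hex, ?_⟩
    rcases Nat.eq_zero_or_pos (Nat.find hex) with a | a
    · exact Or.inl a
    · refine Or.inr ⟨a, lt_of_le_of_ne (le _ _) (Nat.find_min hex (by omega))⟩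

end

end Vale.Agent.P345
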