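import Mathlib

namespace Vale.Agent.P345

open WeierstrassCurve

/-- The curve y^2 = x^3 - 2x. -/
def EE : WeierstrassCurve.Affine ℚ := ⟨0, 0, 0, -2, 0⟩

instance : EE.IsElliptic := ⟨by
  have : EE.Δ = 512 := by
    simp only [EE, WeierstrassCurve.Δ, WeierstrassCurve.b₂, WeierstrassCurve.b₄,
      WeierstrassCurve.b₆, WeierstrassCurve.b₈]; norm_num
  rw [this]; exact (isUnit_iff_ne_zero.2 (by norm_num))⟩

abbrev G : Type := EE.Point

theorem ns_iff (x y : ℚ) : EE.Nonsingular x y ↔ y ^ 2 = x ^ 3 - 2 * x := by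
  rw [← Affine.equation_iff_nonsingular, Affine.equation_iff]
  simp only [EE]
  constructor <;> intro h <;> linarith

def pt (x y : ℚ) (h : y ^ 2 = x ^ 3 - 2 * x) : G := Affine.Point.some x y ((ns_iff x y).2 h)

def px : G → ℚ
  | .zero => 0
  | .some x _ _ => x

def py : G → ℚ
  | .zero => 0
  | .some _ y _ => y

def fl : G → ℕ
  | .zero => 0
  | .some _ _ _ => 1

@[simp] theorem px_zero : px 0 = 0 := rfl
@[simp] theorem py_zero : py 0 = 0 := rfl
@[simp] theorem fl_zero : fl 0 = 0 := rfl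
@[simp] theorem px_pt (x y h) : px (pt x y h) = x := rfl
@[simp] theorem py_pt (x y h) : py (pt x y h) = y := rfl
@[simp] theorem fl_pt (x y h) : fl (pt x y h) = 1 := rfl

theorem pt_cases (P : G) : P = 0 ∨ ∃ x y h, P = pt x y h := by
  cases P with
  | zero => left; rfl
  | some x y h => right; exact ⟨x, y, (ns_iff x y).1 h, rfl⟩

theorem pt_ne_zero (x y h) : pt x y h ≠ 0 := Affine.Point.some_ne_zero _

theorem pt_ext {x y x' y' h h'} (hx : x = x') (hy : y = y') : pt x y h = pt x' y' h' := by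
  subst hx; subst hy; rfl

theorem negY_eq (x y : ℚ) : EE.negY x y = -y := by simp [Affine.negY, EE]

theorem neg_pt (x y h) : -pt x y h = pt x (-y) (by rw [← h]; ring) := by
  unfold pt
  rw [Affine.Point.neg_some]
  congr 1
  exact negY_eq _ _

theorem add_opp {x y x' y' h h'} (hx : x = x') (hy : y = -y') : pt x y h + pt x' y' h' = 0 :=
  Affine.Point.add_of_Y_eq hx (by rw [negY_eq]; exact hy)

theorem add_gen {x y x' y' h h'} (hxy : ¬ (x = x' ∧ y = -y')) (l : ℚ)
    (hl : l = if x = x' then (3 * x ^ 2 - 2) / (2 * y) else (y - y') / (x - x')) :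
    ∃ h'', pt x y h + pt x' y' h' = pt (l ^ 2 - x - x') (-(l * (l ^ 2 - x - x' - x) + y)) h'' := by
  have hxy' : ¬ (x = x' ∧ y = EE.negY x' y') := by rwa [negY_eq]
  have hs : EE.slope x x' y y' = l := by
    rw [hl]
    by_cases hx : x = x'
    · have hy : y ≠ EE.negY x' y' := fun e => hxy' ⟨hx, e⟩
      rw [Affine.slope_of_Y_ne hx hy, if_pos hx, negY_eq]
      simp only [EE]; ring
    · rw [Affine.slope_of_X_ne hx, if_neg hx]
  have e1 : EE.addX x x' (EE.slope x x' y y') = l ^ 2 - x - x' := by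
    rw [hs]; simp [Affine.addX, EE]
  have e2 : EE.addY x x' y (EE.slope x x' y y') = -(l * (l ^ 2 - x - x' - x) + y) := by
    rw [Affine.addY, negY_eq, Affine.negAddY, e1, hs]
  have hn := Affine.nonsingular_add ((ns_iff x y).2 h) ((ns_iff x' y').2 h') hxy'
  have hn' := hn
  rw [e1, e2] at hn'
  refine ⟨(ns_iff _ _).1 hn', ?_⟩
  unfold pt
  rw [Affine.Point.add_some hxy']
  congr 1

theorem add_chord {x y x' y' h h'} (hx : x ≠ x') :
    ∃ y'' h'', pt x y h + pt x' y' h' = pt (((y - y') / (x - x')) ^ 2 - x - x') y'' h'' :=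
  ⟨_, add_gen (fun e => hx e.1) _ (by rw [if_neg hx])⟩

theorem add_tan {x y h} (hy : y ≠ 0) :
    ∃ y'' h'', pt x y h + pt x y h = pt ((x ^ 2 + 2) ^ 2 / (4 * y ^ 2)) y'' h'' := by
  obtain ⟨h'', e⟩ := add_gen (x := x) (y := y) (h := h) (h' := h)
    (fun e => hy (by linarith [e.2])) _ (by rw [if_pos rfl])
  have : ((3 * x ^ 2 - 2) / (2 * y)) ^ 2 - x - x = (x ^ 2 + 2) ^ 2 / (4 * y ^ 2) := by
    field_simp
    linear_combination (-32 * x) * h
  rw [e]
  refine ⟨_, ?_, pt_ext this rfl⟩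
  rw [← this]; exact h''

theorem eq_or_neg {x y y' : ℚ} (h : y ^ 2 = x ^ 3 - 2 * x) (h' : y' ^ 2 = x ^ 3 - 2 * x) :
    y' = y ∨ y' = -y := by
  have : (y' - y) * (y' + y) = 0 := by linear_combination h' - h
  rcases mul_eq_zero.1 this with a | a
  · left; linarith
  · right; linarith

/-! Heights -/

open Height

def ca (P : G) : ℚ := if fl P = 0 then 1 else px P
def cb (P : G) : ℚ := if fl P = 0 then 0 else 1

@[simp] theorem ca_zero : ca 0 = 1 := rfl
@[simp] theorem cb_zero : cb 0 = 0 := rfl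
@[simp] theorem ca_pt (x y h) : ca (pt x y h) = x := rfl
@[simp] theorem cb_pt (x y h) : cb (pt x y h) = 1 := rfl

def sy (P Q : G) : Fin 3 → ℚ := ![ca P * ca Q, ca P * cb Q + cb P * ca Q, cb P * cb Q]

def asm (v : Fin 3 → ℚ) : Fin 3 → ℚ :=
  ![(v 0 + 2 * v 2) ^ 2, 2 * v 1 * (v 0 - 2 * v 2), v 1 ^ 2 - 4 * v 0 * v 2]

theorem asm_eq (v : Fin 3 → ℚ) : (fun i => (addSubMap EE i).eval v) = asm v := by
  funext i
  fin_cases i <;>
    simp [addSubMap, asm, EE, WeierstrassCurve.b₂, WeierstrassCurve.b₄,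
      WeierstrassCurve.b₆, WeierstrassCurve.b₈] <;> ring

theorem sy_dbl (x y h) : ∃ c : ℚ, c ≠ 0 ∧
    sy (pt x y h + pt x y h) 0 = c • asm ![x * x, x + x, 1] := by
  by_cases hy : y = 0
  · rw [add_opp rfl (by rw [hy]; simp)]
    have : x ^ 2 + 2 ≠ 0 := by positivity
    refine ⟨1 / (x ^ 2 + 2) ^ 2, by positivity, ?_⟩
    funext i
    subst hy
    fin_cases i <;> simp [sy, asm]
    · field_simp
    · right
      have : x * (x * x - 2) = 0 := by linear_combination -h
      rcases mul_eq_zero.1 this with a | a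
      · left; exact a
      · right; exact a
    · right; ring
  · obtain ⟨y'', h'', e⟩ := add_tan (h := h) hy
    rw [e]
    refine ⟨1 / (4 * y ^ 2), by positivity, ?_⟩
    funext i
    fin_cases i <;> simp [sy, asm]
    · field_simp
    · field_simp; linear_combination 4 * h
    · right; ring

theorem sy_comm (P Q : G) : sy P Q = sy Q P := by
  simp only [sy]; congr 1
  · ring
  · congr 1
    · ring
    · congr 1; ring

theorem ca_neg (P : G) : ca (-P) = ca P := by
  rcases pt_cases P with rfl | ⟨x, y, h, rfl⟩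
  · simp
  · simp [neg_pt]

theorem cb_neg (P : G) : cb (-P) = cb P := by
  rcases pt_cases P with rfl | ⟨x, y, h, rfl⟩
  · simp
  · simp [neg_pt]

theorem sy_add (P Q : G) : ∃ c : ℚ, c ≠ 0 ∧ sy (P + Q) (P - Q) = c • asm (sy P Q) := by
  rcases pt_cases P with rfl | ⟨x, y, h, rfl⟩
  · refine ⟨1, one_ne_zero, ?_⟩
    rw [zero_add, zero_sub]
    rcases pt_cases Q with rfl | ⟨x', y', h', rfl⟩
    · funext i; fin_cases i <;> simp [sy, asm]
    · funext i; fin_cases i <;> simp [sy, asm, ca_neg, cb_neg] <;> ring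
  rcases pt_cases Q with rfl | ⟨x', y', h', rfl⟩
  · refine ⟨1, one_ne_zero, ?_⟩
    rw [add_zero, sub_zero]
    funext i; fin_cases i <;> simp [sy, asm] <;> ring
  by_cases hx : x = x'
  · subst hx
    have e0 : ∀ y y' h h', sy (pt x y h) (pt x y' h') = ![x * x, x + x, 1] := by
      intros; simp [sy]
    rw [e0]
    rcases eq_or_neg h h' with rfl | rfl
    · rw [sub_self]; exact sy_dbl _ _ _
    · rw [add_opp rfl (by simp), sub_eq_add_neg, neg_pt, sy_comm]
      have : pt x (- -y) (by rw [← h]; ring) = pt x y h := pt_ext rfl (by simp)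
      rw [this]; exact sy_dbl _ _ _
  · rw [sub_eq_add_neg, neg_pt]
    obtain ⟨y1, h1, e1⟩ := add_chord (h := h) (h' := h') hx
    obtain ⟨y2, h2, e2⟩ := add_chord (h := h) (y' := -y') (h' := by rw [← h']; ring) hx
    rw [e1, e2]
    have hd : x - x' ≠ 0 := sub_ne_zero.2 hx
    refine ⟨1 / (x - x') ^ 2, by positivity, ?_⟩
    funext i
    fin_cases i <;> simp [sy, asm]
    · field_simp
      linear_combination (exp := 1) (y ^ 2 + x ^ 3 - 2 * x - 2 * y' ^ 2 -
        2 * (x + x') * (x - x') ^ 2) * h + (y' ^ 2 + x' ^ 3 - 2 * x' - 2 * (x ^ 3 - 2 * x) -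
        2 * (x + x') * (x - x') ^ 2) * h'
    · field_simp
      linear_combination 2 * h + 2 * h'
    · field_simp
      ring

noncomputable def hh (P : G) : ℝ := logHeight ![ca P, cb P]

theorem cab_ne (P : G) : ![ca P, cb P] ≠ 0 := by
  rcases pt_cases P with rfl | ⟨x, y, h, rfl⟩ <;> simp

theorem parallelogram : ∃ C : ℝ, ∀ P Q : G,
    |hh (P + Q) + hh (P - Q) - 2 * (hh P + hh Q)| ≤ C := by
  obtain ⟨C1, h1⟩ := abs_logHeight_addSubMap_sub_two_mul_logHeight_le EE
  obtain ⟨C2, h2⟩ := abs_logHeight_sym2_sub_le ℚ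
  refine ⟨C1 + 3 * C2, fun P Q => ?_⟩
  obtain ⟨c, hc, e⟩ := sy_add P Q
  have a1 := h1 (sy P Q)
  rw [asm_eq, ← logHeight_smul_eq_logHeight _ hc, ← e] at a1
  have a2 := h2 (cab_ne P) (cab_ne Q)
  have a3 := h2 (cab_ne (P + Q)) (cab_ne (P - Q))
  change |logHeight (sy P Q) - (hh P + hh Q)| ≤ C2 at a2
  change |logHeight (sy (P + Q) (P - Q)) - (hh (P + Q) + hh (P - Q))| ≤ C2 at a3
  rw [abs_le] at *
  constructor <;> linarith [a1.1, a1.2, a2.1, a2.2, a3.1, a3.2]

def HH (P : G) : ℕ := max (px P).num.natAbs (px P).den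

theorem HH_pos (P : G) : 0 < HH P := lt_max_of_lt_right (px P).den_pos

theorem hh_eq1 (P : G) : hh P = logHeight₁ (px P) := by
  rcases pt_cases P with rfl | ⟨x, y, h, rfl⟩
  · rw [logHeight₁_eq_logHeight, logHeight_swap]; rfl
  · rw [logHeight₁_eq_logHeight]; rfl

theorem hh_eq (P : G) : hh P = Real.log (HH P) := by
  rw [hh_eq1, Rat.logHeight₁_eq_log_max]; rfl

theorem hh_nonneg (P : G) : 0 ≤ hh P := logHeight_nonneg _

theorem fib_finite (x : ℚ) : {P : G | px P = x}.Finite := by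
  by_cases h : ∃ y, y ^ 2 = x ^ 3 - 2 * x
  · obtain ⟨y, h⟩ := h
    refine (Set.toFinite {0, pt x y h, -pt x y h}).subset fun P hP => ?_
    rcases pt_cases P with rfl | ⟨x', y', h', rfl⟩
    · simp
    · have : x' = x := hP
      subst this
      rcases eq_or_neg h h' with rfl | rfl
      · simp
      · simp [neg_pt]
  · refine (Set.toFinite {0}).subset fun P hP => ?_
    rcases pt_cases P with rfl | ⟨x', y', h', rfl⟩
    · simp
    · have : x' = x := hP
      subst this
      exact (h ⟨_, h'⟩).elim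

instance : Northcott hh where
  finite_le B := by
    refine ((NumberField.finite_setOfPred_logHeight₁_le ℚ B).biUnion
      (fun x _ => fib_finite x)).subset fun P hP => ?_
    simp only [Set.mem_iUnion]
    exact ⟨px P, by rw [Set.mem_setOf_eq, ← hh_eq1]; exact hP, rfl⟩

end Vale.Agent.P345
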