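import Vale.Agent.P345.Curve

namespace Vale.Agent.P345

theorem even_val {p : ℕ} [Fact p.Prime] {x y D : ℚ} (hx : x ≠ 0) (hD0 : D ≠ 0)
    (hD : padicValRat p D = 0) (h : y ^ 2 = x * (x ^ 2 + D)) : Even (padicValRat p x) := by
  have hx2 : x ^ 2 ≠ 0 := pow_ne_zero _ hx
  have v2 : padicValRat p (x ^ 2) = 2 * padicValRat p x := by
    rw [padicValRat.pow]; rfl
  by_cases hs : x ^ 2 + D = 0
  · have : x ^ 2 = -D := by linarith
    rw [this, padicValRat.neg, hD] at v2
    have : padicValRat p x = 0 := by omega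
    rw [this]; exact ⟨0, rfl⟩
  have hv : 2 * padicValRat p y = padicValRat p x + padicValRat p (x ^ 2 + D) := by
    rw [← padicValRat.mul hx hs, ← h, padicValRat.pow]; rfl
  rcases lt_trichotomy (padicValRat p x) 0 with a | a | a
  · rw [padicValRat.add_eq_of_lt hs hx2 hD0 (by omega), v2] at hv
    exact ⟨padicValRat p y - padicValRat p x, by omega⟩
  · rw [a]; exact ⟨0, rfl⟩
  · rw [add_comm (x ^ 2), padicValRat.add_eq_of_lt (by rwa [add_comm]) hD0 hx2 (by omega),
      hD] at hv
    exact ⟨padicValRat p y, by omega⟩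

theorem sq_class {x : ℚ} (hx : x ≠ 0)
    (h : ∀ p : ℕ, p.Prime → p ≠ 2 → Even (padicValRat p x)) :
    ∃ d ∈ ({1, 2, -1, -2} : Finset ℚ), ∃ r : ℚ, x = d * r ^ 2 := by
  have hn : x.num.natAbs ≠ 0 := by simpa using hx
  obtain ⟨d, k, e, hd⟩ := Nat.sq_mul_squarefree (x.num.natAbs * x.den)
  have hne : x.num.natAbs * x.den ≠ 0 := mul_ne_zero hn x.den_nz
  have hk : k ≠ 0 := by rintro rfl; exact hne (by rw [← e]; simp)
  have hd0 : d ≠ 0 := hd.ne_zero
  have h2 : ∀ p : ℕ, p.Prime → p ∣ d → p = 2 := by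
    intro p hp hpd
    by_contra hp2
    haveI := Fact.mk hp
    have h1 := h p hp hp2
    have e1 : padicValNat p (k ^ 2 * d) = 2 * padicValNat p k + padicValNat p d := by
      rw [padicValNat.mul (pow_ne_zero _ hk) hd0, padicValNat.pow]
    have e2 : padicValNat p d = 1 := by
      have a := (Nat.squarefree_iff_factorization_le_one hd0).1 hd p
      have b := (hp.dvd_iff_one_le_factorization hd0).1 hpd
      rw [Nat.factorization_def _ hp] at a b
      omega
    rw [e, padicValNat.mul hn x.den_nz, e2] at e1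
    rw [padicValRat_def, padicValInt] at h1
    obtain ⟨t, ht⟩ := h1
    omega
  have hd2 : d = 1 ∨ d = 2 := by
    have := Nat.eq_prime_pow_of_unique_prime_dvd hd0 (p := 2) (fun hp hpd => h2 _ hp hpd)
    generalize d.primeFactorsList.length = l at this
    subst this
    rcases l with _ | _ | l
    · simp
    · simp
    · exfalso
      have := hd 2 ⟨2 ^ l, by ring⟩
      simp at this
  have hden : (x.den : ℚ) ≠ 0 := by simp
  have e' : ((k : ℚ)) ^ 2 * d = |(x.num : ℚ)| * x.den := by
    have := congrArg (fun n : ℕ => (n : ℚ)) e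
    simpa [Nat.cast_natAbs] using this
  have hx' : (x.num : ℚ) = x * x.den := (Rat.mul_den_eq_num x).symm
  have habs : |x| = d * (k / x.den) ^ 2 := by
    rw [hx', abs_mul, abs_of_nonneg (show (0 : ℚ) ≤ x.den by positivity)] at e'
    field_simp
    linear_combination -e'
  rcases abs_choice x with a | a <;> rcases hd2 with rfl | rfl
  · exact ⟨1, by simp, k / x.den, by rw [a] at habs; push_cast at habs; linarith⟩
  · exact ⟨2, by simp, k / x.den, by rw [a] at habs; push_cast at habs; linarith⟩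
  · exact ⟨-1, by simp, k / x.den, by rw [a] at habs; push_cast at habs; linarith⟩
  · exact ⟨-2, by simp, k / x.den, by rw [a] at habs; push_cast at habs; linarith⟩

theorem val_two_pow {p : ℕ} (hp : p.Prime) (hp2 : p ≠ 2) (k : ℕ) :
    padicValRat p ((2 : ℚ) ^ k) = 0 := by
  haveI := Fact.mk hp
  rw [padicValRat.pow]
  have : padicValRat p (2 : ℚ) = 0 := by
    have := padicValRat.of_nat (p := p) (n := 2)
    rw [padicValNat.eq_zero_of_not_dvd (fun h => hp2 ((Nat.prime_dvd_prime_iff_eq hp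
      Nat.prime_two).1 h))] at this
    simpa using this
  simp [this]

def TT : G := pt 0 0 (by norm_num)

def al (P : G) : ℚ := if fl P = 0 then 1 else if px P = 0 then -2 else px P

@[simp] theorem al_zero : al 0 = 1 := rfl
theorem al_TT : al TT = -2 := by simp [al, TT]
theorem al_pt {x y h} (hx : x ≠ 0) : al (pt x y h) = x := by simp [al, hx]

theorem al_ne (P : G) : al P ≠ 0 := by
  unfold al; split_ifs <;> simp_all

theorem al_neg (P : G) : al (-P) = al P := by
  rcases pt_cases P with rfl | ⟨x, y, h, rfl⟩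
  · simp
  · rw [neg_pt]; rfl

theorem pt_zero {y h} : pt 0 y h = TT := pt_ext rfl (by simpa using h)

theorem TT_add : TT + TT = 0 := add_opp rfl (by simp)

theorem al_class (P : G) : ∃ d ∈ ({1, 2, -1, -2} : Finset ℚ), ∃ r : ℚ, al P = d * r ^ 2 := by
  rcases pt_cases P with rfl | ⟨x, y, h, rfl⟩
  · exact ⟨1, by simp, 1, by simp⟩
  by_cases hx : x = 0
  · subst hx; rw [pt_zero, al_TT]; exact ⟨-2, by simp, 1, by simp⟩
  rw [al_pt hx]
  refine sq_class hx fun p hp hp2 => ?_
  haveI := Fact.mk hp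
  refine even_val (y := y) (D := -2) hx (by norm_num) ?_ (by rw [h]; ring)
  rw [padicValRat.neg]; simpa using val_two_pow hp hp2 1

theorem al_addT (P : G) : ∃ r : ℚ, al P * (-2) * al (P + TT) = r ^ 2 := by
  rcases pt_cases P with rfl | ⟨x, y, h, rfl⟩
  · exact ⟨2, by rw [zero_add, al_TT]; norm_num⟩
  by_cases hx : x = 0
  · subst hx; rw [pt_zero, TT_add, al_TT]; exact ⟨2, by norm_num⟩
  obtain ⟨y1, h1, e1⟩ := add_chord (h := h) (y' := 0) (h' := by norm_num) hx
  have e2 : ((y - 0) / (x - 0)) ^ 2 - x - 0 = -2 / x := by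
    rw [sub_zero, sub_zero, sub_zero, div_pow, h]; field_simp; ring
  rw [TT, e1, al_pt hx, al_pt (by rw [e2]; exact div_ne_zero (by norm_num) hx), e2]
  exact ⟨2, by field_simp⟩

theorem al_add (P Q : G) : ∃ r : ℚ, al P * al Q * al (P + Q) = r ^ 2 := by
  by_cases h1 : Q = TT
  · subst h1; rw [al_TT]; exact al_addT P
  by_cases h2 : P = TT
  · subst h2; rw [al_TT, add_comm, mul_comm (-2)]; exact al_addT Q
  by_cases h3 : P + Q = TT
  · obtain ⟨r, hr⟩ := al_addT (-P)
    have : -P + TT = Q := by rw [← h3]; abel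
    rw [this, al_neg] at hr
    rw [h3, al_TT]; exact ⟨r, by linarith⟩
  rcases pt_cases P with rfl | ⟨x, y, h, rfl⟩
  · exact ⟨al Q, by simp [sq]⟩
  rcases pt_cases Q with rfl | ⟨x', y', h', rfl⟩
  · exact ⟨al (pt x y h), by simp [sq]⟩
  have hx : x ≠ 0 := by rintro rfl; exact h2 pt_zero
  have hx' : x' ≠ 0 := by rintro rfl; exact h1 pt_zero
  by_cases hxy : x = x' ∧ y = -y'
  · rw [add_opp hxy.1 hxy.2, al_pt hx, al_pt hx', hxy.1]; exact ⟨x', by simp [sq]⟩
  obtain ⟨l, hl⟩ : ∃ l : ℚ,
      l = if x = x' then (3 * x ^ 2 - 2) / (2 * y) else (y - y') / (x - x') := ⟨_, rfl⟩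
  obtain ⟨h'', e⟩ := add_gen (h := h) (h' := h') hxy l hl
  rw [e] at h3 ⊢
  clear e
  have hx'' : l ^ 2 - x - x' ≠ 0 := by
    intro e0
    apply h3
    rw [← pt_zero (y := -(l * (l ^ 2 - x - x' - x) + y)) (h := by rw [h'', e0])]
    exact pt_ext e0 rfl
  rw [al_pt hx, al_pt hx', al_pt hx'']
  refine ⟨y - l * x, ?_⟩
  by_cases hxx : x = x'
  · subst hxx
    rw [if_pos rfl] at hl
    have hy : y ≠ 0 := by
      rintro rfl
      apply hxy
      rcases eq_or_neg h h' with a | a <;> simp [a]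
    have h5 : l * (2 * y) = 3 * x ^ 2 - 2 := by rw [hl]; field_simp
    linear_combination x * h5 - h
  · rw [if_neg hxx] at hl
    have hd : x - x' ≠ 0 := sub_ne_zero.2 hxx
    have h5 : y' = y - l * (x - x') := by rw [hl]; field_simp; ring
    subst h5
    apply mul_left_cancel₀ hd
    linear_combination x' * h - x * h'

theorem half_of_sq {x y : ℚ} (h : y ^ 2 = x ^ 3 - 2 * x) (r w : ℚ) (hr : r ≠ 0) (hx : x = r ^ 2)
    (hw : 2 * (x + y / r) = w ^ 2) : ∃ Y : G, pt x y h = Y + Y := by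
  have h8 : w ^ 2 * (2 * (x - y / r)) = 8 := by
    rw [← hw]; subst hx; field_simp; linear_combination -4 * h
  have hw0 : w ≠ 0 := by rintro rfl; norm_num at h8
  have h4 : w ^ 4 + 8 = 4 * r ^ 2 * w ^ 2 := by
    rw [← h8, show w ^ 4 = w ^ 2 * w ^ 2 by ring]
    nth_rewrite 2 [← hw]
    rw [hx]; ring
  set u : ℚ := (w ^ 2 + 2 * r * w) / 2 with hu
  have hu2 : u ^ 2 - w ^ 2 * u - 2 = 0 := by rw [hu]; linear_combination (-1 / 4) * h4
  have hu0 : u ≠ 0 := by rintro e; rw [e] at hu2; norm_num at hu2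
  have hY : (w * u) ^ 2 = u ^ 3 - 2 * u := by linear_combination -u * hu2
  obtain ⟨y1, h1, e1⟩ := add_tan (h := hY) (mul_ne_zero hw0 hu0)
  have e2 : (u ^ 2 + 2) ^ 2 / (4 * (w * u) ^ 2) = x := by
    have : u ^ 2 + 2 = 2 * r * w * u := by
      have : u ^ 2 + 2 = u * (2 * u - w ^ 2) := by linear_combination -hu2
      rw [this]
      have : 2 * u - w ^ 2 = 2 * r * w := by rw [hu]; ring
      rw [this]; ring
    rw [this, hx]; field_simp; norm_num
  have h1' : y1 ^ 2 = x ^ 3 - 2 * x := by rw [← e2]; exact h1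
  have e3 : pt u (w * u) hY + pt u (w * u) hY = pt x y1 h1' := e1.trans (pt_ext e2 rfl)
  rcases eq_or_neg h h1' with a | a
  · exact ⟨_, by rw [e3]; exact pt_ext rfl a.symm⟩
  · refine ⟨-pt u (w * u) hY, ?_⟩
    rw [← neg_add, e3, neg_pt]; exact pt_ext rfl (by rw [a]; ring)

theorem al_ker (P : G) (r : ℚ) (hr : al P = r ^ 2) : ∃ Y : G, P = Y + Y := by
  rcases pt_cases P with rfl | ⟨x, y, h, rfl⟩
  · exact ⟨0, by simp⟩
  by_cases hx : x = 0
  · subst hx; rw [pt_zero, al_TT] at hr; nlinarith [sq_nonneg r]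
  rw [al_pt hx] at hr
  have hr0 : r ≠ 0 := by rintro rfl; exact hx (by simpa using hr)
  set X : ℚ := 2 * (x + y / r) with hX
  have h8 : X * (2 * (x - y / r)) = 8 := by
    rw [hX]; subst hr; field_simp; linear_combination -4 * h
  have hX0 : X ≠ 0 := by rintro e; rw [e] at h8; norm_num at h8
  have hE : (2 * r * X) ^ 2 = X * (X ^ 2 + 8) := by
    rw [← h8]
    have : X ^ 2 + X * (2 * (x - y / r)) = X * (4 * r ^ 2) := by rw [← hr, hX]; ring
    rw [this]; ring
  have hXp : 0 < X := by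
    have : 0 ≤ X * (X ^ 2 + 8) := by rw [← hE]; positivity
    have h2 : 0 < X ^ 2 + 8 := by positivity
    exact lt_of_le_of_ne (nonneg_of_mul_nonneg_left this h2) hX0.symm
  obtain ⟨d, hd, w, hw⟩ := sq_class hX0 (fun p hp hp2 => by
    haveI := Fact.mk hp
    refine even_val (D := 8) hX0 (by norm_num) ?_ hE
    have := val_two_pow hp hp2 3
    norm_num at this; exact this)
  simp only [Finset.mem_insert, Finset.mem_singleton] at hd
  rcases hd with rfl | rfl | rfl | rfl
  · exact half_of_sq h r w hr0 hr (by rw [← hX, hw]; ring)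
  · have hw0 : w ≠ 0 := by rintro rfl; exact hX0 (by simpa using hw)
    refine half_of_sq h (-r) (2 / w) (neg_ne_zero.2 hr0) (by rw [hr]; ring) ?_
    rw [hw] at h8
    rw [div_neg]; field_simp; field_simp at h8; linear_combination (1 / 4) * h8
  · nlinarith [sq_nonneg w]
  · nlinarith [sq_nonneg w]

theorem TT_ne (Y : G) : TT ≠ Y + Y := by
  intro e
  obtain ⟨r, hr⟩ := al_add Y Y
  rw [← e, al_TT] at hr
  have := mul_self_pos.2 (al_ne Y)
  nlinarith [sq_nonneg r]

theorem exists_cls : ∃ cls : G → ({1, 2, -1, -2} : Finset ℚ),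
    ∀ P Q, cls P = cls Q → ∃ Y : G, P - Q = Y + Y := by
  choose d hd r hr using al_class
  refine ⟨fun P => ⟨d P, hd P⟩, fun P Q e => ?_⟩
  have e' : d P = d Q := congrArg Subtype.val e
  obtain ⟨s, hs⟩ := al_add P (-Q)
  rw [al_neg, ← sub_eq_add_neg] at hs
  have hP := al_ne P
  have hQ := al_ne Q
  have h0 : al P * al Q = (d Q * r P * r Q) ^ 2 := by rw [hr P, hr Q, e']; ring
  have h1 : d Q * r P * r Q ≠ 0 := by
    intro z; rw [z] at h0; simp [hP, hQ] at h0
  refine al_ker _ (s / (d Q * r P * r Q)) ?_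
  rw [h0] at hs
  rw [div_pow, eq_div_iff (pow_ne_zero _ h1)]; linarith

instance : AddGroup.FG G := by
  obtain ⟨C, hC⟩ := parallelogram
  obtain ⟨cls, hcls⟩ := exists_cls
  refine AddCommGroup.fg_of_descent' (h := hh) ?_ hh_nonneg hC
  haveI : Finite (G ⧸ (nsmulAddMonoidHom (α := G) 2).range) := by
    refine Finite.of_injective (fun q => cls q.out) fun a b e => ?_
    obtain ⟨Y, hY⟩ := hcls _ _ e
    rw [← a.out_eq, ← b.out_eq]
    refine QuotientAddGroup.eq_iff_sub_mem.2 ⟨Y, ?_⟩
    rw [hY]; simp [two_nsmul]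
  exact AddSubgroup.finiteIndex_of_finite_quotient

theorem dbl_val (P : G) (hP : padicValRat 2 (px P) < 0) :
    padicValRat 2 (px (P + P)) < padicValRat 2 (px P) := by
  rcases pt_cases P with rfl | ⟨x, y, h, rfl⟩
  · simp at hP
  simp only [px_pt] at hP ⊢
  have hx : x ≠ 0 := by rintro rfl; simp at hP
  have v2 : padicValRat 2 (x ^ 2) = 2 * padicValRat 2 x := by rw [padicValRat.pow]; rfl
  have w2 : padicValRat 2 (2 : ℚ) = 1 := padicValRat.self (p := 2) (by norm_num)
  have hm : x ^ 2 + -2 ≠ 0 := by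
    intro e
    have : x ^ 2 = 2 := by linarith
    rw [this, w2] at v2; omega
  have hy : y ≠ 0 := by
    rintro rfl
    have : x * (x ^ 2 + -2) = 0 := by linear_combination -h
    simp [hx, hm] at this
  obtain ⟨y1, h1, e1⟩ := add_tan (h := h) hy
  rw [e1, px_pt]
  have hp : x ^ 2 + 2 ≠ 0 := by positivity
  have a1 : padicValRat 2 (x ^ 2 + 2) = 2 * padicValRat 2 x := by
    rw [padicValRat.add_eq_of_lt hp (pow_ne_zero _ hx) (by norm_num) (by omega), v2]
  have a2 : padicValRat 2 (x ^ 2 + -2) = 2 * padicValRat 2 x := by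
    rw [padicValRat.add_eq_of_lt hm (pow_ne_zero _ hx) (by norm_num)
      (by rw [padicValRat.neg]; omega), v2]
  have e4 : 4 * y ^ 2 = 2 ^ 2 * (x * (x ^ 2 + -2)) := by rw [h]; ring
  rw [padicValRat.div (pow_ne_zero _ hp) (by positivity), e4,
    padicValRat.mul (by norm_num) (mul_ne_zero hx hm), padicValRat.mul hx hm, a2,
    padicValRat.pow, padicValRat.pow, a1, w2]
  push_cast; omega

instance : Infinite G := by
  let P0 : G := pt (9 / 4) (21 / 8) (by norm_num)
  let f : ℕ → G := fun n => (fun P : G => P + P)^[n] P0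
  have h0 : padicValRat 2 (px P0) < 0 := by
    have : px P0 = 9 / 2 ^ 2 := by simp [P0]; norm_num
    have w2 : padicValRat 2 (2 : ℚ) = 1 := padicValRat.self (p := 2) (by norm_num)
    have w9 : padicValRat 2 (9 : ℚ) = 0 := by
      have := padicValRat.of_nat (p := 2) (n := 9)
      rw [padicValNat.eq_zero_of_not_dvd (by norm_num)] at this
      simpa using this
    rw [this, padicValRat.div (by norm_num) (by norm_num), padicValRat.pow, w2, w9]; norm_num
  have h1 : ∀ n, padicValRat 2 (px (f n)) < 0 := by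
    intro n
    induction n with
    | zero => exact h0
    | succ n ih =>
      have : f (n + 1) = f n + f n := Function.iterate_succ_apply' _ _ _
      rw [this]; exact (dbl_val _ ih).trans ih
  have h2 : StrictAnti (fun n => padicValRat 2 (px (f n))) := strictAnti_nat_of_succ_lt fun n => by
    have : f (n + 1) = f n + f n := Function.iterate_succ_apply' _ _ _
    simp only [this]; exact dbl_val _ (h1 n)
  exact Infinite.of_injective f fun a b e => h2.injective (by simp only [e])

theorem rank_one : ∃ (ι : G →+ ℤ) (P0 : G), ι P0 = 1 ∧ Finite ι.ker := by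
  obtain ⟨n, κ, _, p, hp, e, ⟨f⟩⟩ := AddCommGroup.equiv_free_prod_directSum_zmod G
  haveI : ∀ i, NeZero (p i ^ e i) := fun i => ⟨pow_ne_zero _ (hp i).ne_zero⟩
  haveI hfin : Finite (DirectSum κ fun i => ZMod (p i ^ e i)) := by
    classical
    exact Finite.of_equiv _ (DirectSum.addEquivProd _).symm.toEquiv
  let φ : Fin n → G →+ ℤ := fun i =>
    (Finsupp.applyAddHom i).comp ((AddMonoidHom.fst _ _).comp f.toAddMonoidHom)
  have hφ : ∀ i P, φ i P = (f P).1 i := fun i P => rfl
  let E : Fin n → G := fun i => f.symm (Finsupp.single i 1, 0)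
  have hE : ∀ i j, φ i (E j) = if j = i then 1 else 0 := by
    intro i j; rw [hφ]; simp [E, Finsupp.single_apply]
  rcases n with _ | _ | n
  · exfalso
    haveI : Finite G := Finite.of_equiv _ f.symm.toEquiv
    exact not_finite G
  · refine ⟨φ 0, E 0, by simp [hE], ?_⟩
    refine Finite.of_injective (fun x : (φ 0).ker => (f x.1).2) fun a b h => ?_
    apply Subtype.ext
    apply f.injective
    refine Prod.ext ?_ h
    ext i
    have : i = 0 := Fin.fin_one_eq_zero i
    subst this
    have ha : φ 0 a.1 = 0 := a.2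
    have hb : φ 0 b.1 = 0 := b.2
    rw [hφ] at ha hb
    exact ha.trans hb.symm
  · exfalso
    obtain ⟨cls, hcls⟩ := exists_cls
    have hT : ∀ i, φ i TT = 0 := fun i => by
      have := congrArg (φ i) TT_add
      rw [map_add, map_zero] at this; omega
    let g : Fin 2 × Fin 2 × Fin 2 → G := fun t =>
      (t.1 : ℕ) • E 0 + (t.2.1 : ℕ) • E 1 + (t.2.2 : ℕ) • TT
    obtain ⟨a, b, hab, e1⟩ := Fintype.exists_ne_map_eq_of_card_lt (fun t => cls (g t)) (by
      simp only [Fintype.card_coe, Fintype.card_prod, Fintype.card_fin]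
      exact lt_of_le_of_lt Finset.card_le_four (by norm_num))
    obtain ⟨Y, hY⟩ := hcls _ _ e1
    have k0 := congrArg (φ 0) hY
    have k1 := congrArg (φ 1) hY
    simp only [g, map_sub, map_add, map_nsmul, hE, hT] at k0 k1
    simp at k0 k1
    obtain ⟨a1, a2, a3⟩ := a
    obtain ⟨b1, b2, b3⟩ := b
    have q1 : a1 = b1 := by apply Fin.ext; simp only at k0; omega
    have q2 : a2 = b2 := by apply Fin.ext; simp only at k1; omega
    subst q1; subst q2
    have hTT : -TT = TT := neg_eq_of_add_eq_zero_left TT_add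
    fin_cases a3 <;> fin_cases b3
    · exact hab rfl
    · apply TT_ne Y; rw [← hY, ← hTT]; simp [g]
    · apply TT_ne Y; rw [← hY]; simp [g]
    · exact hab rfl

end Vale.Agent.P345
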