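import Vale.Agent.P345.Arith
import Vale.Agent.P345.Descent

namespace Vale.Agent.P345

open Filter Topology

def encG (P : G) : ℕ × ℚ × ℚ := (fl P, px P, py P)

theorem encG_inj : Function.Injective encG := by
  intro P Q h
  simp only [encG, Prod.mk.injEq] at h
  rcases pt_cases P with rfl | ⟨x, y, h1, rfl⟩ <;> rcases pt_cases Q with rfl | ⟨x', y', h2, rfl⟩
  · rfl
  · simp at h
  · simp at h
  · exact pt_ext h.2.1 h.2.2

noncomputable instance cdG : Cd G := Cd.ofInj encG encG_inj (by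
  have : SF (fun p : ℕ × ℚ × ℚ => (p.1 = 0 ∧ p.2.1 = 0 ∧ p.2.2 = 0) ∨
      (p.1 = 1 ∧ p.2.2 * p.2.2 = p.2.1 * p.2.1 * p.2.1 - 2 * p.2.1)) :=
    SF.xor (by fun_prop) (by fun_prop) (fun x a b => by omega)
  refine this.congr ?_
  rintro ⟨a, x, y⟩
  simp only [encG, Prod.mk.injEq]
  constructor
  · rintro (⟨rfl, rfl, rfl⟩ | ⟨rfl, h⟩)
    · exact ⟨0, rfl, rfl, rfl⟩
    · exact ⟨pt x y (by linear_combination h), rfl, rfl, rfl⟩
  · rintro ⟨P, rfl, rfl, rfl⟩
    rcases pt_cases P with rfl | ⟨x, y, h1, rfl⟩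
    · simp
    · right; simp; linear_combination h1)

theorem encG_sf : SFn encG := SFn.coord _ id fun _ => rfl

section
variable {X : Type} [Cd X]

@[fun_prop] theorem SFn.fl {f : X → G} (hf : SFn f) : SFn (fun x => fl (f x)) :=
  (encG_sf.comp hf).fst
@[fun_prop] theorem SFn.px {f : X → G} (hf : SFn f) : SFn (fun x => px (f x)) :=
  (encG_sf.comp hf).snd.fst
@[fun_prop] theorem SFn.py {f : X → G} (hf : SFn f) : SFn (fun x => py (f x)) :=
  (encG_sf.comp hf).snd.snd

def slp (P Q : G) : ℚ :=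
  if px P = px Q then (3 * (px P * px P) - 2) / (2 * py P) else (py P - py Q) / (px P - px Q)

theorem slp_sf : SFn (fun p : G × G => slp p.1 p.2) :=
  SFn.ite (by fun_prop) (SF.neQ (by fun_prop) (by fun_prop)) (by fun_prop) (by fun_prop)

theorem addG0 : SFn (fun p : G × G => p.1 + p.2) := by
  refine SFn.of_inj encG_inj encG_sf ?_
  have hs := slp_sf
  have : SFn (fun p : G × G => if fl p.1 = 0 then encG p.2 else if fl p.2 = 0 then encG p.1 else
      if px p.1 = px p.2 ∧ py p.1 = - py p.2 then ((0 : ℕ), (0 : ℚ), (0 : ℚ)) else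
      (1, slp p.1 p.2 * slp p.1 p.2 - px p.1 - px p.2,
        -(slp p.1 p.2 * (slp p.1 p.2 * slp p.1 p.2 - px p.1 - px p.2 - px p.1) + py p.1))) := by
    refine SFn.ite (by fun_prop) (SF.neNat (by fun_prop) (by fun_prop))
      (encG_sf.comp SFn.snd0) ?_
    refine SFn.ite (by fun_prop) (SF.neNat (by fun_prop) (by fun_prop))
      (encG_sf.comp SFn.fst0) ?_
    refine SFn.ite (by fun_prop) ?_ (by fun_prop) (by fun_prop)
    have : SF (fun p : G × G => ¬ px p.1 = px p.2 ∨ (px p.1 = px p.2 ∧ ¬ py p.1 = - py p.2)) :=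
      SF.xor (SF.neQ (by fun_prop) (by fun_prop))
        (SF.and (by fun_prop) (SF.neQ (by fun_prop) (by fun_prop))) (fun x a b => a b.1)
    exact this.congr fun p => by tauto
  refine this.congr ?_
  rintro ⟨P, Q⟩
  rcases pt_cases P with rfl | ⟨x, y, h1, rfl⟩
  · simp
  rcases pt_cases Q with rfl | ⟨x', y', h2, rfl⟩
  · simp
  by_cases hxy : x = x' ∧ y = -y'
  · simp only [add_opp hxy.1 hxy.2]
    simp [hxy, encG]
  · obtain ⟨h3, e⟩ := add_gen (h := h1) (h' := h2) hxy (slp (pt x y h1) (pt x' y' h2))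
      (by rw [sq]; rfl)
    simp only [e]
    simp [hxy, encG, sq]

@[fun_prop] theorem SFn.addG {f g : X → G} (hf : SFn f) (hg : SFn g) :
    SFn (fun x => f x + g x) := addG0.comp (hf.pair hg)

theorem SFn.nsmulG {f : X → G} (hf : SFn f) (n : ℕ) : SFn (fun x => n • f x) := by
  induction n with
  | zero => simpa using SFn.const (0 : G)
  | succ n ih => exact (ih.addG hf).congr fun x => by rw [succ_nsmul]

@[fun_prop] theorem SFn.HH {f : X → G} (hf : SFn f) : SFn (fun x => HH (f x)) := by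
  unfold Vale.Agent.P345.HH; fun_prop

end

def cq (q : ℚ) : ℕ := Nat.pair (Nat.pair q.num.toNat (-q.num).toNat) q.den

theorem cq_inj : Function.Injective cq := by
  intro a b h
  simp only [cq, Nat.pair_eq_pair] at h
  exact Rat.ext (by omega) h.2

def cG (P : G) : ℕ := Nat.pair (fl P) (Nat.pair (cq (px P)) (cq (py P)))

theorem cG_inj : Function.Injective cG := by
  intro a b h
  simp only [cG, Nat.pair_eq_pair] at h
  apply encG_inj
  simp only [encG, h.1, cq_inj h.2.1, cq_inj h.2.2]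

theorem cG_sf : SFn cG := by
  unfold cG cq; fun_prop

theorem tate (a : ℤ → ℝ) (C : ℝ)
    (h : ∀ i j, |a (i + j) + a (i - j) - 2 * (a i + a j)| ≤ C) :
    ∃ κ C' : ℝ, ∀ j : ℤ, |a j - κ * (j : ℝ) ^ 2| ≤ C' := by
  let f : ℤ → ℕ → ℝ := fun j n => a (2 ^ n * j) / 4 ^ n
  have hu : ∀ j n, dist (f j n) (f j (n + 1)) ≤ (C + |a 0|) / 4 * (1 / 4 : ℝ) ^ n := by
    intro j n
    have h1 := h (2 ^ n * j) (2 ^ n * j)
    rw [sub_self, show 2 ^ n * j + 2 ^ n * j = 2 ^ (n + 1) * j by ring] at h1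
    have e : f j n - f j (n + 1) =
        -(a (2 ^ (n + 1) * j) - 4 * a (2 ^ n * j)) / 4 * (1 / 4 : ℝ) ^ n := by
      simp only [f]; rw [one_div, inv_pow]; field_simp; ring
    rw [Real.dist_eq, e, abs_mul, abs_of_nonneg (show (0 : ℝ) ≤ (1 / 4) ^ n by positivity)]
    apply mul_le_mul_of_nonneg_right _ (by positivity)
    rw [abs_div, abs_neg, abs_of_nonneg (show (0 : ℝ) ≤ 4 by norm_num)]
    apply div_le_div_of_nonneg_right _ (by norm_num)
    rw [abs_le] at h1 ⊢
    constructor <;> linarith [h1.1, h1.2, le_abs_self (a 0), neg_abs_le (a 0)]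
  have hc : ∀ j, ∃ q, Tendsto (f j) atTop (𝓝 q) := fun j =>
    cauchySeq_tendsto_of_complete (cauchySeq_of_le_geometric (1 / 4) _ (by norm_num) (hu j))
  choose q hq using hc
  have hd : ∀ j, |a j - q j| ≤ (C + |a 0|) / 4 / (1 - 1 / 4) := fun j => by
    have := dist_le_of_le_geometric_of_tendsto₀ (1 / 4) _ (by norm_num) (hu j) (hq j)
    simpa [f, Real.dist_eq] using this
  have hp : ∀ i j, q (i + j) + q (i - j) - 2 * (q i + q j) = 0 := by
    intro i j
    have t1 : Tendsto (fun n => f (i + j) n + f (i - j) n - 2 * (f i n + f j n)) atTop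
        (𝓝 (q (i + j) + q (i - j) - 2 * (q i + q j))) :=
      ((hq _).add (hq _)).sub (((hq _).add (hq _)).const_mul 2)
    have t2 : Tendsto (fun n => f (i + j) n + f (i - j) n - 2 * (f i n + f j n)) atTop (𝓝 0) := by
      have t3 : Tendsto (fun n : ℕ => C * (1 / 4 : ℝ) ^ n) atTop (𝓝 0) := by
        simpa using (tendsto_pow_atTop_nhds_zero_of_lt_one (r := (1 / 4 : ℝ)) (by norm_num)
          (by norm_num)).const_mul C
      refine squeeze_zero_norm (fun n => ?_) t3
      have e : f (i + j) n + f (i - j) n - 2 * (f i n + f j n) =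
          (a (2 ^ n * i + 2 ^ n * j) + a (2 ^ n * i - 2 ^ n * j) -
            2 * (a (2 ^ n * i) + a (2 ^ n * j))) * (1 / 4 : ℝ) ^ n := by
        simp only [f]; rw [one_div, inv_pow, mul_add, mul_sub]; field_simp
      rw [e, Real.norm_eq_abs, abs_mul,
        abs_of_nonneg (show (0 : ℝ) ≤ (1 / 4) ^ n by positivity)]
      exact mul_le_mul_of_nonneg_right (h _ _) (by positivity)
    exact tendsto_nhds_unique t1 t2
  have q0 : q 0 = 0 := by have := hp 0 0; simp at this; linarith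
  have qn : ∀ n : ℕ, q n = q 1 * (n : ℝ) ^ 2 ∧ q (n + 1) = q 1 * ((n : ℝ) + 1) ^ 2 := by
    intro n
    induction n with
    | zero => simp [q0]
    | succ n ih =>
      refine ⟨by push_cast; exact ih.2, ?_⟩
      have := hp (n + 1) 1
      rw [add_sub_cancel_right, ih.1, ih.2] at this
      push_cast; linear_combination this
  refine ⟨q 1, (C + |a 0|) / 4 / (1 - 1 / 4), fun j => ?_⟩
  have : q j = q 1 * (j : ℝ) ^ 2 := by
    obtain ⟨n, rfl | rfl⟩ := Int.eq_nat_or_neg j
    · simpa using (qn n).1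
    · have := hp 0 n
      rw [zero_add, zero_sub, q0] at this
      have := (qn n).1
      push_cast; nlinarith
  rw [← this]; exact hd j

theorem exists_A : ∃ (A : ℤ → ℕ) (lam C : ℝ), 0 ≤ C ∧ 4 * C + 4 ≤ lam ∧ (∀ j, 0 < A j) ∧
    (∀ j : ℤ, |Real.log (A j) - lam * (j : ℝ) ^ 2| ≤ C) ∧
    ∃ (Can : G → Prop) (ι : G → ℤ), SF Can ∧ (∀ j, ∃! X, Can X ∧ ι X = j) ∧
      SFn (fun X => A (ι X)) ∧ SFn (fun X => A (ι X + 1)) := by
  obtain ⟨ι, P0, h0, hfin⟩ := rank_one
  obtain ⟨C0, hC0⟩ := parallelogram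
  let N := Nat.card ι.ker
  have hN : 0 < N := Nat.card_pos
  have hNk : ∀ X, ι X = 0 → N • X = 0 := fun X hX => by
    have := card_nsmul_eq_zero' (G := ι.ker) (x := ⟨X, hX⟩)
    exact congrArg Subtype.val this
  let P1 : G := N • P0
  have hNX : ∀ X, N • X = ι X • P1 := fun X => by
    have := hNk (X - ι X • P0) (by simp [h0])
    rw [nsmul_sub, sub_eq_zero] at this
    rw [this]; simp only [P1]; rw [smul_comm]
  obtain ⟨κ, C, hC⟩ := tate (fun j => hh (j • P1)) C0 (fun i j => by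
    simp only [add_zsmul, sub_zsmul]; rw [← sub_eq_add_neg]; exact hC0 _ _)
  have hCn : 0 ≤ C := (abs_nonneg _).trans (hC 0)
  have hκ : 0 < κ := by
    by_contra hk
    push Not at hk
    have hf : {P : G | hh P ≤ C}.Finite := Northcott.finite_le C
    have hinj : Function.Injective (fun j : ℤ => j • P1) := by
      intro i j e
      have := congrArg ι e
      simp only [P1, map_zsmul, map_nsmul, h0, smul_eq_mul, nsmul_eq_mul, mul_one] at this
      exact mul_right_cancel₀ (by exact_mod_cast hN.ne') this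
    refine Set.infinite_of_injective_forall_mem hinj (fun j => ?_) hf
    have := (abs_le.1 (hC j)).2
    have : κ * (j : ℝ) ^ 2 ≤ 0 := mul_nonpos_of_nonpos_of_nonneg hk (sq_nonneg _)
    simp only [Set.mem_setOf_eq]; linarith
  obtain ⟨M, hM⟩ := exists_nat_ge ((4 * C + 4) / κ)
  have hM' : 4 * C + 4 ≤ κ * (M : ℝ) ^ 2 := by
    rw [div_le_iff₀ hκ] at hM
    have : (M : ℝ) ≤ (M : ℝ) ^ 2 := by exact_mod_cast Nat.le_self_pow two_ne_zero M
    nlinarith
  have hF : (ι.ker : Set G).Finite := Set.toFinite _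
  let F := hF.toFinset
  have hFm : ∀ X, X ∈ F ↔ ι X = 0 := fun X => by simp [F]
  refine ⟨fun j => HH (((M : ℤ) * j) • P1), κ * (M : ℝ) ^ 2, C, hCn, hM', fun j => HH_pos _,
    fun j => ?_, fun X => ∀ f ∈ F, cG X ≤ cG (X + f), ι, ?_, fun j => ?_, ?_, ?_⟩
  · have := hC (M * j)
    rw [hh_eq] at this
    push_cast at this
    rwa [mul_assoc, ← mul_pow]
  · exact SF.all F fun f => SF.le cG_sf (cG_sf.comp (by fun_prop))
  · obtain ⟨f, hf, hmin⟩ := F.exists_min_image (fun f => cG (j • P0 + f)) ⟨0, by simp [hFm]⟩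
    rw [hFm] at hf
    refine ⟨j • P0 + f, ⟨fun g hg => ?_, by simp [hf, h0]⟩, ?_⟩
    · rw [add_assoc]; apply hmin
      rw [hFm] at hg ⊢; simp [hf, hg]
    · rintro Y ⟨hY, hj⟩
      apply cG_inj
      apply le_antisymm
      · have := hY (j • P0 + f - Y) (by rw [hFm]; simp [hf, h0, hj])
        rwa [add_sub_cancel] at this
      · have := hmin (Y - j • P0) (by rw [hFm]; simp [h0, hj])
        rwa [add_sub_cancel] at this
  · refine (((SFn.id' (X := G)).nsmulG N).nsmulG M).HH.congr fun X => ?_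
    beta_reduce
    rw [hNX, mul_smul, natCast_zsmul]
  · refine ((((SFn.id' (X := G)).addG (SFn.const P0)).nsmulG N).nsmulG M).HH.congr fun X => ?_
    beta_reduce
    rw [hNX, mul_smul, natCast_zsmul, map_add, h0]

end Vale.Agent.P345
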