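import Vale.Agent.P345.Growth

namespace Vale.Agent.P345

open Pell

theorem pell_iff {a : ℕ} (a1 : 1 < a) (x y : ℕ) :
    x * x = 1 + (a * a - 1) * y * y ↔ ∃ n, x = xn a1 n ∧ y = yn a1 n := by
  constructor
  · intro h
    apply eq_pell a1
    change x * x - (a * a - 1) * y * y = 1
    omega
  · rintro ⟨n, rfl, rfl⟩
    have := pell_eq a1 n
    change xn a1 n * xn a1 n - (a * a - 1) * yn a1 n * yn a1 n = 1 at this
    omega

theorem yn_lower {a : ℕ} (a1 : 1 < a) (n : ℕ) : a ^ n ≤ yn a1 (n + 1) := by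
  have := xn_ge_a_pow a1 n
  rw [yn_succ]; omega

theorem yn_upper {a : ℕ} (a1 : 1 < a) (n : ℕ) : yn a1 (n + 1) ≤ (2 * a) ^ n := by
  induction n with
  | zero => simp
  | succ n ih =>
    have := yn_succ_succ a1 n
    calc yn a1 (n + 2) ≤ 2 * a * yn a1 (n + 1) := by omega
      _ ≤ 2 * a * (2 * a) ^ n := Nat.mul_le_mul_left _ ih
      _ = _ := by ring

theorem log_two_le : Real.log 2 ≤ 1 := by
  have := Real.log_le_sub_one_of_pos (show (0 : ℝ) < 2 by norm_num); linarith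

theorem log_pow_le {b m n : ℕ} (hb : 0 < b) (h : b ^ m ≤ n) :
    (m : ℝ) * Real.log b ≤ Real.log n := by
  rw [← Real.log_pow]
  exact Real.log_le_log (by positivity) (by exact_mod_cast h)

theorem log_le_pow {b m n : ℕ} (hn : 0 < n) (hb : 0 < b) (h : n ≤ (2 * b) ^ m) :
    Real.log n ≤ (m : ℝ) * (Real.log b + 1) := by
  have h1 : Real.log n ≤ Real.log (((2 * b) ^ m : ℕ) : ℝ) :=
    Real.log_le_log (by exact_mod_cast hn) (by exact_mod_cast h)
  push_cast at h1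
  rw [Real.log_pow, Real.log_mul (by norm_num) (by positivity)] at h1
  have := log_two_le
  nlinarith [Nat.cast_nonneg (α := ℝ) m]

theorem quot_bounds {A0 A1 : ℕ} (h0 : 0 < A0) (h1 : 0 < A1) :
    Real.log A1 - Real.log A0 < (A1 / A0 : ℕ) ∧
    (0 < A1 / A0 → Real.log (A1 / A0 : ℕ) ≤ Real.log A1 - Real.log A0 ∧
      Real.log A1 - Real.log A0 ≤ Real.log (A1 / A0 : ℕ) + 1) := by
  have p0 : (0 : ℝ) < A0 := by exact_mod_cast h0
  have p1 : (0 : ℝ) < A1 := by exact_mod_cast h1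
  have e : Real.log A1 - Real.log A0 = Real.log ((A1 : ℝ) / A0) := by
    rw [Real.log_div p1.ne' p0.ne']
  have hlt : (A1 : ℝ) / A0 < (A1 / A0 : ℕ) + 1 := by
    rw [div_lt_iff₀ p0]
    have := Nat.lt_div_mul_add (a := A1) h0
    have h2 : A1 < (A1 / A0 + 1) * A0 := by rw [add_mul]; omega
    exact_mod_cast h2
  have hle : ((A1 / A0 : ℕ) : ℝ) ≤ (A1 : ℝ) / A0 := Nat.cast_div_le
  rw [e]
  refine ⟨?_, fun hb => ⟨Real.log_le_log (by exact_mod_cast hb) hle, ?_⟩⟩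
  · have := Real.log_le_sub_one_of_pos (div_pos p1 p0); linarith
  · have hb' : (1 : ℝ) ≤ (A1 / A0 : ℕ) := by exact_mod_cast hb
    have : Real.log ((A1 : ℝ) / A0) ≤ Real.log (2 * ((A1 / A0 : ℕ) : ℝ)) :=
      Real.log_le_log (div_pos p1 p0) (by linarith)
    rw [Real.log_mul (by norm_num) (by positivity)] at this
    linarith [log_two_le]

section
variable {A : ℤ → ℕ} {lam C : ℝ} (hC : 0 ≤ C) (hl : 4 * C + 4 ≤ lam) (hA : ∀ j, 0 < A j)
  (hb : ∀ j : ℤ, |Real.log (A j) - lam * (j : ℝ) ^ 2| ≤ C)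
include hC hl hA hb

theorem quot_big (j : ℤ) (hj : 0 ≤ j) : j + 3 ≤ (A (j + 1) / A j : ℕ) := by
  have h1 := (quot_bounds (hA j) (hA (j + 1))).1
  have a := abs_le.1 (hb j)
  have b := abs_le.1 (hb (j + 1))
  have hj' : (0 : ℝ) ≤ j := by exact_mod_cast hj
  push_cast at b
  have : ((j + 3 : ℤ) : ℝ) ≤ (((A (j + 1) / A j : ℕ) : ℤ) : ℝ) := by
    rw [Int.cast_natCast]; push_cast [-Nat.cast_div]
    nlinarith [a.1, a.2, b.1, b.2]
  exact_mod_cast this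

theorem idx (j : ℤ) (b1 : 1 < A (j + 1) / A j) (m : ℕ)
    (h1 : yn b1 m ≤ A j * A j) (h2 : A j * A j < yn b1 (m + 1)) :
    0 ≤ j ∧ (1 ≤ j → (m : ℤ) = j) ∧ (j = 0 → m ≤ 1) := by
  obtain ⟨q1, q2⟩ := (quot_bounds (hA j) (hA (j + 1))).2 (by omega)
  have a := abs_le.1 (hb j)
  have b := abs_le.1 (hb (j + 1))
  push_cast at b
  have hβ : 0 < Real.log (A (j + 1) / A j : ℕ) := Real.log_pos (by exact_mod_cast b1)
  have hpos := Nat.mul_pos (hA j) (hA j)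
  have hj : 0 ≤ j := by
    by_contra hj
    have : (j : ℝ) ≤ -1 := by exact_mod_cast (show j ≤ -1 by omega)
    nlinarith [a.1, a.2, b.1, b.2]
  have hj' : (0 : ℝ) ≤ j := by exact_mod_cast hj
  rcases m with _ | m
  · rw [zero_add, yn_one] at h2; omega
  have l1 := log_pow_le (by omega) ((yn_lower b1 m).trans h1)
  have l2 := log_le_pow hpos (by omega) (h2.le.trans (yn_upper b1 (m + 1)))
  have e : Real.log ((A j * A j : ℕ) : ℝ) = 2 * Real.log (A j) := by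
    have : (0 : ℝ) < A j := by exact_mod_cast hA j
    push_cast; rw [Real.log_mul this.ne' this.ne']; ring
  rw [e] at l1 l2
  generalize Real.log (A (j + 1) / A j : ℕ) = β at *
  have hm : (0 : ℝ) ≤ m := Nat.cast_nonneg m
  have u1 : lam * (2 * j + 1) - 2 * C - 1 ≤ β := by nlinarith [a.1, a.2, b.1, b.2]
  have u2 : β ≤ lam * (2 * j + 1) + 2 * C := by nlinarith [a.1, a.2, b.1, b.2]
  refine ⟨hj, fun j1 => ?_, fun j0 => ?_⟩
  · have j1' : (1 : ℝ) ≤ j := by exact_mod_cast j1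
    by_contra hne
    rcases lt_or_gt_of_ne hne with c | c
    · have c' : (m : ℝ) + 1 ≤ j - 1 := by
        have : (m : ℤ) + 1 ≤ j - 1 := by push_cast at c; omega
        exact_mod_cast this
      push_cast at l2
      have : ((m : ℝ) + 1) * (β + 1) ≤ (j - 1) * (lam * (2 * j + 1) + 2 * C + 1) :=
        mul_le_mul c' (by linarith) (by linarith) (by linarith)
      nlinarith [a.1, a.2]
    · have c' : (j : ℝ) ≤ m := by
        have : j ≤ (m : ℤ) := by push_cast at c; omega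
        exact_mod_cast this
      have : (j : ℝ) * (lam * (2 * j + 1) - 2 * C - 1) ≤ m * β :=
        mul_le_mul c' u1 (by nlinarith) hm
      nlinarith [a.1, a.2]
  · subst j0
    by_contra c
    have c' : (1 : ℝ) ≤ m := by exact_mod_cast (show 1 ≤ m by omega)
    simp only [Int.cast_zero] at *
    nlinarith [a.1, a.2]

end

theorem exists_idx {a : ℕ} (a1 : 1 < a) (H : ℕ) : ∃ m, yn a1 m ≤ H ∧ H < yn a1 (m + 1) := by
  have hex : ∃ m, H < yn a1 (m + 1) := ⟨H, yn_ge_n a1 (H + 1)⟩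
  classical
  refine ⟨Nat.find hex, ?_, Nat.find_spec hex⟩
  rcases h : Nat.find hex with _ | k
  · simp
  · have := Nat.find_min hex (m := k) (by omega); omega

theorem exists_F : ∃ (F : ℕ → ℕ) (lam C : ℝ), 0 ≤ C ∧ 4 * C + 4 ≤ lam ∧ (∀ t, 0 < F t) ∧
    (∀ t : ℕ, |Real.log (F t) - lam * ((t : ℝ) + 2) ^ 2| ≤ C) ∧ SFn F := by
  obtain ⟨A, lam, C, hC, hl, hA, hb, Can, ι, s1, hu, s2, s3⟩ := exists_A
  refine ⟨fun t => A (t + 2), lam, C, hC, hl, fun t => hA _, fun t => ?_, ?_⟩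
  · have := hb (t + 2); push_cast at this; exact this
  let R : ℕ × ℕ → G × ℕ × ℕ → Prop := fun p w => Can w.1 ∧ 1 < A (ι w.1 + 1) / A (ι w.1) ∧
    w.2.1 * w.2.1 = 1 + (A (ι w.1 + 1) / A (ι w.1) * (A (ι w.1 + 1) / A (ι w.1)) - 1) *
      w.2.2 * w.2.2 ∧ w.2.2 ≤ A (ι w.1) * A (ι w.1) ∧
      A (ι w.1) * A (ι w.1) < w.2.1 + w.2.2 * (A (ι w.1 + 1) / A (ι w.1)) ∧
      w.2.2 % (A (ι w.1 + 1) / A (ι w.1) - 1) = p.1 + 2 ∧ A (ι w.1) = p.2
  have key : ∀ p w, R p w → ι w.1 = p.1 + 2 ∧ ∃ b1 : 1 < A (ι w.1 + 1) / A (ι w.1),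
      w.2 = (xn b1 (p.1 + 2), yn b1 (p.1 + 2)) := by
    rintro ⟨t, v⟩ ⟨X, x, y⟩ ⟨-, b1, h1, h2, h3, h4, -⟩
    simp only at *
    obtain ⟨m, rfl, rfl⟩ := (pell_iff b1 _ _).1 h1
    obtain ⟨k1, k2, k3⟩ := idx hC hl hA hb _ b1 m h2 (by rw [yn_succ]; exact h3)
    have k4 := quot_big hC hl hA hb _ k1
    have k5 : m < A (ι X + 1) / A (ι X) - 1 := by omega
    have k6 := yn_modEq_a_sub_one b1 m
    rw [Nat.ModEq, Nat.mod_eq_of_lt k5, h4] at k6
    subst k6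
    exact ⟨by push_cast at k2; omega, b1, rfl⟩
  have s4 : SF (fun p => ∃ w, R p w) := by
    refine SF.ex ?_ ?_
    · have a0 : SFn (fun q : (ℕ × ℕ) × G × ℕ × ℕ => A (ι q.2.1)) := s2.comp (by fun_prop)
      have a1 : SFn (fun q : (ℕ × ℕ) × G × ℕ × ℕ => A (ι q.2.1 + 1)) := s3.comp (by fun_prop)
      have a2 : SF (fun q : (ℕ × ℕ) × G × ℕ × ℕ => Can q.2.1) := s1.comp (by fun_prop)
      have a3 := a1.div a0
      have x1 : SFn (fun q : (ℕ × ℕ) × G × ℕ × ℕ => q.2.2.1) := by fun_prop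
      have x2 : SFn (fun q : (ℕ × ℕ) × G × ℕ × ℕ => q.2.2.2) := by fun_prop
      exact a2.and ((SF.lt (SFn.const 1) a3).and ((SF.eq (x1.mul x1) ((SFn.const 1).add
        ((((a3.mul a3).sub (SFn.const 1)).mul x2).mul x2))).and ((SF.le x2 (a0.mul a0)).and
        ((SF.lt (a0.mul a0) (x1.add (x2.mul a3))).and ((SF.eq (x2.mod (a3.sub (SFn.const 1)))
        (by fun_prop)).and (SF.eq a0 (by fun_prop)))))))
    · intro p w w' h h'
      obtain ⟨e1, b1, e2⟩ := key _ _ h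
      obtain ⟨e3, b3, e4⟩ := key _ _ h'
      have : w.1 = w'.1 := (hu (p.1 + 2)).unique ⟨h.1, e1⟩ ⟨h'.1, e3⟩
      refine Prod.ext this ?_
      rw [e2, e4]; congr 2 <;> simp [this]
  refine s4.graph ?_
  rintro ⟨t, v⟩
  constructor
  · rintro ⟨w, h⟩
    have := (key _ _ h).1
    simp only at this ⊢
    rw [← this]; exact h.2.2.2.2.2.2
  · intro h
    obtain ⟨X, ⟨c1, c2⟩, -⟩ := hu (t + 2)
    have k4 := quot_big hC hl hA hb (ι X) (by omega)
    have b1 : 1 < A (ι X + 1) / A (ι X) := by omega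
    obtain ⟨m, m1, m2⟩ := exists_idx b1 (A (ι X) * A (ι X))
    obtain ⟨k1, k2, k3⟩ := idx hC hl hA hb _ b1 m m1 m2
    have k5 : m = t + 2 := by omega
    refine ⟨(X, xn b1 m, yn b1 m), c1, b1, (pell_iff b1 _ _).2 ⟨m, rfl, rfl⟩, m1,
      by rw [yn_succ] at m2; exact m2, ?_, by simp only [c2]; exact h⟩
    have k6 := yn_modEq_a_sub_one b1 m
    rw [Nat.ModEq, Nat.mod_eq_of_lt (show m < A (ι X + 1) / A (ι X) - 1 by omega)] at k6
    exact k6.trans k5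

theorem pow_est {F : ℕ → ℕ} {lam C : ℝ} (hC : 0 ≤ C) (hl : 4 * C + 4 ≤ lam) (hF : ∀ t, 0 < F t)
    (hb : ∀ t : ℕ, |Real.log (F t) - lam * ((t : ℝ) + 2) ^ 2| ≤ C) (x k : ℕ) (hx : 0 < x) :
    ∃ a1 : 1 < F (x + k), x < F (x + k) ∧ x ^ k < F (x + k) ∧ k < F (x + k) - 1 ∧
      ∀ m, (yn a1 m ≤ F ((x + k) * (x + k) + 4 * (x + k) + 2) ∧ yn a1 m % (F (x + k) - 1) = k) ↔
        m = k := by
  have a := abs_le.1 (hb (x + k))
  have b := abs_le.1 (hb ((x + k) * (x + k) + 4 * (x + k) + 2))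
  have pa := hF (x + k)
  have pB := hF ((x + k) * (x + k) + 4 * (x + k) + 2)
  generalize F (x + k) = a0 at *
  generalize F ((x + k) * (x + k) + 4 * (x + k) + 2) = B at *
  obtain ⟨s, hs⟩ : ∃ s : ℝ, s = (x : ℝ) + k + 2 := ⟨_, rfl⟩
  have e1 : ((x + k : ℕ) : ℝ) + 2 = s := by rw [hs]; push_cast; ring
  have e2 : (((x + k) * (x + k) + 4 * (x + k) + 2 : ℕ) : ℝ) + 2 = s ^ 2 := by
    rw [hs]; push_cast; ring
  rw [e1] at a; rw [e2] at b
  have hx' : (1 : ℝ) ≤ x := by exact_mod_cast hx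
  have hk' : (0 : ℝ) ≤ k := Nat.cast_nonneg k
  have s2 : 3 ≤ s := by linarith
  have s9 : 9 ≤ s ^ 2 := by nlinarith
  have pa' : (0 : ℝ) < a0 := by exact_mod_cast pa
  have l0 : 4 * s ^ 2 ≤ Real.log a0 := by nlinarith [a.1]
  have l1 : 4 * s ^ 2 + 1 ≤ a0 := by linarith [Real.log_le_sub_one_of_pos pa']
  have ss : s ≤ s ^ 2 := by nlinarith
  have g1 : x + k + 2 < a0 := by
    have : ((x + k + 2 : ℕ) : ℝ) < a0 := by push_cast; linarith
    exact_mod_cast this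
  have a1 : 1 < a0 := by omega
  refine ⟨a1, by omega, ?_, by omega, fun m => ⟨?_, ?_⟩⟩
  · by_contra c
    push Not at c
    have := Real.log_le_log pa' (show (a0 : ℝ) ≤ (x : ℝ) ^ k by exact_mod_cast c)
    rw [Real.log_pow] at this
    have l3 : Real.log x ≤ x := by linarith [Real.log_le_sub_one_of_pos (show (0 : ℝ) < x by linarith)]
    have : (k : ℝ) * Real.log x ≤ k * x := mul_le_mul_of_nonneg_left l3 hk'
    nlinarith
  · rintro ⟨h1, h2⟩
    have k6 := yn_modEq_a_sub_one a1 m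
    rw [Nat.ModEq, h2] at k6
    by_cases c : m < a0 - 1
    · rw [Nat.mod_eq_of_lt c] at k6; exact k6.symm
    exfalso
    obtain ⟨m', rfl⟩ : ∃ m', m = m' + 1 := ⟨m - 1, by omega⟩
    have l2 := log_pow_le pa ((yn_lower a1 m').trans h1)
    have c' : (a0 : ℝ) ≤ m' + 2 := by exact_mod_cast (show a0 ≤ m' + 2 by omega)
    have : (2 * s ^ 2) * (lam * s ^ 2 - C) ≤ m' * Real.log a0 :=
      mul_le_mul (by linarith) (by linarith [a.1]) (by nlinarith) (Nat.cast_nonneg _)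
    nlinarith [b.2, mul_le_mul_of_nonneg_right hl (show 0 ≤ s ^ 2 * s ^ 2 by positivity),
      mul_le_mul_of_nonneg_left s9 (show 0 ≤ C * s ^ 2 by positivity)]
  · rintro rfl
    refine ⟨?_, ?_⟩
    · have h1 : yn a1 m ≤ (2 * a0) ^ m := ((strictMono_y a1).monotone (Nat.le_succ m)).trans
        (yn_upper a1 m)
      refine h1.trans ?_
      by_contra c
      push Not at c
      have l2 := log_le_pow pB pa c.le
      have : (m : ℝ) * (Real.log a0 + 1) ≤ s * (lam * s ^ 2 + C + 1) :=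
        mul_le_mul (by linarith) (by linarith [a.2]) (by linarith) (by linarith)
      have h3 : lam * s ^ 2 * s * 3 ≤ lam * s ^ 2 * s * s :=
        mul_le_mul_of_nonneg_left s2 (by have : 0 ≤ lam := by linarith
                                         positivity)
      have h4 : (4 * C + 4) * (s ^ 2 * s) ≤ lam * (s ^ 2 * s) :=
        mul_le_mul_of_nonneg_right hl (by positivity)
      have h5 : (C + 1) * s * 9 ≤ (C + 1) * s * s ^ 2 :=
        mul_le_mul_of_nonneg_left s9 (by positivity)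
      nlinarith [b.1]
    · have k6 := yn_modEq_a_sub_one a1 m
      rw [Nat.ModEq, Nat.mod_eq_of_lt (show m < a0 - 1 by omega)] at k6
      exact k6

theorem pow_mod_pell {a x : ℕ} (a1 : 1 < a) (k : ℕ) (hx : 0 < x) (h1 : x < a) (h2 : x ^ k < a)
    (r : ℕ) : (r < 2 * a * x - x * x - 1 ∧ xn a1 k % (2 * a * x - x * x - 1) =
      (yn a1 k * (a - x) + r) % (2 * a * x - x * x - 1)) ↔ x ^ k = r := by
  have h3 : x * x + 1 + a ≤ 2 * a * x := by nlinarith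
  have h4 : xn a1 k ≡ yn a1 k * (a - x) + x ^ k [MOD 2 * a * x - x * x - 1] := by
    rw [Nat.modEq_iff_dvd]
    have := x_sub_y_dvd_pow a1 x k
    rw [Nat.cast_sub (by omega), Nat.cast_sub (by omega)]
    push_cast [Nat.cast_sub h1.le]
    simpa [xz, yz] using this
  constructor
  · rintro ⟨a, b⟩
    have := Nat.ModEq.add_left_cancel' _ (h4.symm.trans b)
    exact this.eq_of_lt_of_lt (by omega) a
  · rintro rfl
    exact ⟨by omega, h4⟩

theorem pow_succ0 : SFn (fun p : ℕ × ℕ => (p.1 + 1) ^ p.2) := by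
  obtain ⟨F, lam, C, hC, hl, hF, hb, s⟩ := exists_F
  let R : (ℕ × ℕ) × ℕ → ℕ × ℕ → Prop := fun p w =>
    w.1 * w.1 = 1 + (F (p.1.1 + 1 + p.1.2) * F (p.1.1 + 1 + p.1.2) - 1) * w.2 * w.2 ∧
    w.2 ≤ F ((p.1.1 + 1 + p.1.2) * (p.1.1 + 1 + p.1.2) + 4 * (p.1.1 + 1 + p.1.2) + 2) ∧
    w.2 % (F (p.1.1 + 1 + p.1.2) - 1) = p.1.2 ∧
    p.2 < 2 * F (p.1.1 + 1 + p.1.2) * (p.1.1 + 1) - (p.1.1 + 1) * (p.1.1 + 1) - 1 ∧
    w.1 % (2 * F (p.1.1 + 1 + p.1.2) * (p.1.1 + 1) - (p.1.1 + 1) * (p.1.1 + 1) - 1) =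
      (w.2 * (F (p.1.1 + 1 + p.1.2) - (p.1.1 + 1)) + p.2) %
        (2 * F (p.1.1 + 1 + p.1.2) * (p.1.1 + 1) - (p.1.1 + 1) * (p.1.1 + 1) - 1)
  have s4 : SF (fun p => ∃ w, R p w) := by
    refine SF.ex (by simp only [R]; fun_prop) ?_
    rintro ⟨⟨x, k⟩, r⟩ ⟨X, Y⟩ ⟨X', Y'⟩ ⟨h1, h2, h3, -⟩ ⟨h4, h5, h6, -⟩
    obtain ⟨a1, -, -, -, e⟩ := pow_est hC hl hF hb (x + 1) k (by omega)
    obtain ⟨m, rfl, rfl⟩ := (pell_iff a1 _ _).1 h1
    obtain ⟨m', rfl, rfl⟩ := (pell_iff a1 _ _).1 h4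
    rw [(e m).1 ⟨h2, h3⟩, (e m').1 ⟨h5, h6⟩]
  refine s4.graph ?_
  rintro ⟨⟨x, k⟩, r⟩
  obtain ⟨a1, e1, e2, e3, e⟩ := pow_est hC hl hF hb (x + 1) k (by omega)
  constructor
  · rintro ⟨⟨X, Y⟩, h1, h2, h3, h4⟩
    obtain ⟨m, rfl, rfl⟩ := (pell_iff a1 _ _).1 h1
    have := (e m).1 ⟨h2, h3⟩
    subst this
    exact (pow_mod_pell a1 m (by omega) e1 e2 r).1 h4
  · intro h
    have := (e k).2 rfl
    exact ⟨(xn a1 k, yn a1 k), (pell_iff a1 _ _).2 ⟨k, rfl, rfl⟩, this.1, this.2,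
      (pow_mod_pell a1 k (by omega) e1 e2 r).2 h⟩

@[fun_prop] theorem SFn.pow {X : Type} [Cd X] {f g : X → ℕ} (hf : SFn f) (hg : SFn g) :
    SFn (fun x => f x ^ g x) := by
  have h1 : SFn (fun x => (f x - 1 + 1) ^ g x) :=
    pow_succ0.comp (f := fun x => (f x - 1, g x)) (by fun_prop)
  have : SFn (fun x => if f x = 0 then 1 - g x else (f x - 1 + 1) ^ g x) :=
    SFn.ite (by fun_prop) (SF.neNat hf (by fun_prop)) (by fun_prop) h1
  refine this.congr fun x => ?_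
  split_ifs with h
  · rw [h]; rcases g x with _ | n <;> simp
  · rw [Nat.sub_add_cancel (by omega)]

end Vale.Agent.P345
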