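import Vale.Agent.P345.Count

namespace Vale.Agent.P345

open Finset

theorem mem_prec (f g : ℕ →. ℕ) (a n y : ℕ) :
    y ∈ (n.rec (f a) fun y IH => do let i ← IH; g (Nat.pair a (Nat.pair y i)) : Part ℕ) ↔
      ∃ s : ℕ → ℕ, s 0 ∈ f a ∧ (∀ i < n, s (i + 1) ∈ g (Nat.pair a (Nat.pair i (s i)))) ∧
        s n = y := by
  induction n generalizing y with
  | zero =>
    constructor
    · intro h; exact ⟨fun _ => y, h, fun i hi => absurd hi (by omega), rfl⟩
    · rintro ⟨s, h, -, rfl⟩; exact h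
  | succ n ih =>
    simp only [Part.bind_eq_bind] at ih
    simp only [Part.bind_eq_bind, Part.mem_bind_iff, ih]
    constructor
    · rintro ⟨z, ⟨s, h0, h1, rfl⟩, h2⟩
      refine ⟨fun i => if i ≤ n then s i else y, by simpa using h0, fun i hi => ?_, by simp⟩
      rcases Nat.lt_succ_iff_lt_or_eq.1 hi with h | rfl
      · simp only [if_pos (show i + 1 ≤ n by omega), if_pos h.le]; exact h1 i h
      · simpa using h2
    · rintro ⟨s, h0, h1, rfl⟩
      exact ⟨s n, ⟨s, h0, fun i hi => h1 i (by omega), rfl⟩, h1 n (by omega)⟩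

def dg (B c i : ℕ) : ℕ := c / B ^ i % B
def dv (B c i : ℕ) : ℕ := dg B c (i + 1) - dg B c i

section
variable {X : Type} [Cd X]
@[fun_prop] theorem SFn.dg {f g h : X → ℕ} (hf : SFn f) (hg : SFn g) (hh : SFn h) :
    SFn (fun x => dg (f x) (g x) (h x)) := by unfold Vale.Agent.P345.dg; fun_prop
@[fun_prop] theorem SFn.dv {f g h : X → ℕ} (hf : SFn f) (hg : SFn g) (hh : SFn h) :
    SFn (fun x => dv (f x) (g x) (h x)) := by unfold Vale.Agent.P345.dv; fun_prop
end

theorem prec_sf {f g : ℕ →. ℕ} (hf : SF (fun p : ℕ × ℕ => p.2 ∈ f p.1))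
    (hg : SF (fun p : ℕ × ℕ => p.2 ∈ g p.1)) :
    SF (fun p : (ℕ × ℕ) × ℕ => ∃ s : ℕ → ℕ, s 0 ∈ f p.1.1 ∧
      (∀ i < p.1.2, s (i + 1) ∈ g (Nat.pair p.1.1 (Nat.pair i (s i)))) ∧ s p.1.2 = p.2) := by
  let R : (ℕ × ℕ) × ℕ → ℕ × ℕ → Prop := fun p w =>
    w.2 < w.1 ^ (p.1.2 + 2) ∧ dg w.1 w.2 0 = 0 ∧
    (∀ i < p.1.2 + 1, dg w.1 w.2 i ≤ dg w.1 w.2 (i + 1)) ∧ w.1 = dg w.1 w.2 (p.1.2 + 1) + 1 ∧
    dv w.1 w.2 0 ∈ f p.1.1 ∧
    (∀ i < p.1.2, dv w.1 w.2 (i + 1) ∈ g (Nat.pair p.1.1 (Nat.pair i (dv w.1 w.2 i)))) ∧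
    dv w.1 w.2 p.1.2 = p.2
  have s : SF (fun p => ∃ w, R p w) := by
    refine SF.ex ?_ ?_
    · refine SF.and (by fun_prop) (SF.and (by fun_prop) (SF.and ?_ (SF.and (by fun_prop)
        (SF.and ?_ (SF.and ?_ (by fun_prop))))))
      · exact (SF.ball (X := ℕ × ℕ) (P := fun w i => dg w.1 w.2 i ≤ dg w.1 w.2 (i + 1))
          (by fun_prop)).comp
          (f := fun q : ((ℕ × ℕ) × ℕ) × ℕ × ℕ => (q.2, q.1.1.2 + 1)) (by fun_prop)
      · exact hf.comp (f := fun q : ((ℕ × ℕ) × ℕ) × ℕ × ℕ => (q.1.1.1, dv q.2.1 q.2.2 0))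
          (by fun_prop)
      · exact (SF.ball (X := ℕ × ℕ × ℕ) (P := fun w i =>
          dv w.2.1 w.2.2 (i + 1) ∈ g (Nat.pair w.1 (Nat.pair i (dv w.2.1 w.2.2 i))))
          (hg.comp (f := fun q : (ℕ × ℕ × ℕ) × ℕ =>
            (Nat.pair q.1.1 (Nat.pair q.2 (dv q.1.2.1 q.1.2.2 q.2)), dv q.1.2.1 q.1.2.2 (q.2 + 1)))
            (by fun_prop))).comp
          (f := fun q : ((ℕ × ℕ) × ℕ) × ℕ × ℕ => ((q.1.1.1, q.2), q.1.1.2)) (by fun_prop)
    · rintro ⟨⟨a, n⟩, y⟩ ⟨B, c⟩ ⟨B', c'⟩ ⟨h1, h2, h3, h4, h5, h6, -⟩ ⟨k1, k2, k3, k4, k5, k6, -⟩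
      simp only at h1 h2 h3 h4 h5 h6 k1 k2 k3 k4 k5 k6
      have e1 : ∀ i ≤ n, dv B c i = dv B' c' i := by
        intro i
        induction i with
        | zero => intro _; exact Part.mem_unique h5 k5
        | succ i ih =>
          intro hi
          have a1 := h6 i hi
          rw [ih (by omega)] at a1
          exact Part.mem_unique a1 (k6 i hi)
      have e2 : ∀ i ≤ n + 1, dg B c i = dg B' c' i := by
        intro i
        induction i with
        | zero => intro _; rw [h2, k2]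
        | succ i ih =>
          intro hi
          have a1 := ih (by omega)
          have a2 := e1 i (by omega)
          have a3 := h3 i hi
          have a4 := k3 i hi
          simp only [dv] at a2; omega
      have e3 : B = B' := by rw [h4, k4, e2 _ le_rfl]
      subst e3
      congr 1
      rw [← Nat.mod_eq_of_lt h1, ← Nat.mod_eq_of_lt k1, dig_sum, dig_sum]
      refine sum_congr rfl fun i hi => ?_
      have := e2 i (by have := mem_range.1 hi; omega)
      simp only [dg] at this; rw [this]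
  refine s.congr ?_
  rintro ⟨⟨a, n⟩, y⟩
  constructor
  · rintro ⟨⟨B, c⟩, -, -, -, -, h5, h6, h7⟩
    exact ⟨dv B c, h5, h6, h7⟩
  · rintro ⟨s, h0, h1, h2⟩
    simp only at h0 h1 h2
    let t : ℕ → ℕ := fun i => ∑ j ∈ range i, s j
    have tm : Monotone t := fun i j hij =>
      sum_le_sum_of_subset (range_subset_range.2 hij)
    have tl : ∀ i < n + 2, t i < t (n + 1) + 1 := fun i hi =>
      Nat.lt_succ_of_le (tm (by omega))
    have e1 : ∀ i < n + 2, dg (t (n + 1) + 1) (∑ i ∈ range (n + 2), t i * (t (n + 1) + 1) ^ i) i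
        = t i := fun i hi => dig_get i _ tl hi
    have e2 : ∀ i ≤ n, dv (t (n + 1) + 1) (∑ i ∈ range (n + 2), t i * (t (n + 1) + 1) ^ i) i
        = s i := fun i hi => by
      rw [dv, e1 _ (by omega), e1 _ (by omega)]
      simp only [t, sum_range_succ]; omega
    refine ⟨(t (n + 1) + 1, ∑ i ∈ range (n + 2), t i * (t (n + 1) + 1) ^ i), dig_lt _ tl, ?_,
      fun i hi => ?_, ?_, ?_, fun i hi => ?_, ?_⟩ <;> simp only at *
    · rw [e1 _ (by omega)]; simp [t]
    · rw [e1 _ (by omega), e1 _ (by omega)]; exact tm (by omega)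
    · rw [e1 _ (by omega)]
    · rw [e2 _ (by omega)]; exact h0
    · rw [e2 _ (by omega), e2 _ (by omega)]; exact h1 i hi
    · rw [e2 _ le_rfl]; exact h2

theorem partrec_sf {f : ℕ →. ℕ} (hf : Nat.Partrec f) : SF (fun p : ℕ × ℕ => p.2 ∈ f p.1) := by
  induction hf with
  | zero =>
    have : SF (fun p : ℕ × ℕ => p.2 = 0) := by fun_prop
    exact this.congr fun p => Part.mem_some_iff.symm
  | succ =>
    have : SF (fun p : ℕ × ℕ => p.2 = p.1 + 1) := by fun_prop
    exact this.congr fun p => by simp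
  | left =>
    have : SF (fun p : ℕ × ℕ => p.2 = p.1.unpair.1) := by fun_prop
    exact this.congr fun p => by simp
  | right =>
    have : SF (fun p : ℕ × ℕ => p.2 = p.1.unpair.2) := by fun_prop
    exact this.congr fun p => by simp
  | @pair f g _ _ hf hg =>
    have := (hf.comp (f := fun p : ℕ × ℕ => (p.1, p.2.unpair.1)) (by fun_prop)).and
      (hg.comp (f := fun p : ℕ × ℕ => (p.1, p.2.unpair.2)) (by fun_prop))
    refine this.congr fun p => ?_
    simp only [Seq.seq, Part.map_eq_map, Part.mem_bind_iff, Part.mem_map_iff]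
    constructor
    · rintro ⟨a, b⟩
      exact ⟨_, ⟨_, a, rfl⟩, _, b, Nat.pair_unpair _⟩
    · rintro ⟨_, ⟨a, ha, rfl⟩, b, hb, e⟩
      rw [← e]; simp [ha, hb]
  | @comp f g _ _ hf hg =>
    have : SF (fun p : ℕ × ℕ => ∃ z, z ∈ g p.1 ∧ p.2 ∈ f z) :=
      SF.ex ((hg.comp (f := fun q : (ℕ × ℕ) × ℕ => (q.1.1, q.2)) (by fun_prop)).and
        (hf.comp (f := fun q : (ℕ × ℕ) × ℕ => (q.2, q.1.2)) (by fun_prop)))
        fun p y y' a b => Part.mem_unique a.1 b.1
    exact this.congr fun p => Part.mem_bind_iff.symm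
  | @prec f g _ _ hf hg =>
    have := (prec_sf hf hg).comp (f := fun p : ℕ × ℕ => (p.1.unpair, p.2)) (by fun_prop)
    exact this.congr fun p => (mem_prec f g _ _ _).symm
  | @rfind f _ hf =>
    have h1 : SF (fun q : ℕ × ℕ => ∃ z, z + 1 ∈ f (Nat.pair q.1 q.2)) :=
      SF.ex (hf.comp (f := fun q : (ℕ × ℕ) × ℕ => (Nat.pair q.1.1 q.1.2, q.2 + 1)) (by fun_prop))
        fun p y y' a b => by have := Part.mem_unique a b; omega
    have := (hf.comp (f := fun p : ℕ × ℕ => (Nat.pair p.1 p.2, 0)) (by fun_prop)).and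
      (SF.ball (P := fun a i => ∃ z, z + 1 ∈ f (Nat.pair a i)) h1)
    refine this.congr fun p => ?_
    refine Iff.trans ?_ Nat.mem_rfind.symm
    simp only [Part.map_eq_map, Part.mem_map_iff, decide_eq_true_eq,
      decide_eq_false_iff_not, exists_eq_right]
    refine and_congr_right fun _ => forall_congr' fun i => forall_congr' fun _ => ?_
    constructor
    · rintro ⟨z, hz⟩; exact ⟨_, hz, by omega⟩
    · rintro ⟨a, ha, h⟩
      exact ⟨a - 1, by rwa [Nat.sub_add_cancel (by omega)]⟩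

theorem enc_list {X : Type} [Cd X] (n : ℕ) (v : Fin n → X → ℕ) (hv : ∀ i, SFn (v i)) :
    SFn (fun x => Encodable.encode (List.ofFn fun i => v i x)) := by
  induction n with
  | zero => exact (SFn.const (0 : ℕ)).congr fun x => by simp
  | succ n ih =>
    have := ((hv 0).natPair (ih (fun i => v i.succ) fun i => hv _)).add (SFn.const 1)
    exact this.congr fun x => by simp [List.ofFn_succ]

theorem enc_sf (n : ℕ) :
    SFn (fun a : Fin n → ℕ => @Encodable.encode _ Primcodable.toEncodable a) := by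
  refine (enc_list n (fun i (a : Fin n → ℕ) => a i) fun i => SFn.app i).congr fun a => ?_
  change _ = Encodable.encode (List.Vector.ofFn a).toList
  rw [List.Vector.toList_ofFn]

theorem re_sf {n : ℕ} {S : (Fin n → ℕ) → Prop} (hS : REPred S) : SF S := by
  have := (partrec_sf hS).comp
    (f := fun a : Fin n → ℕ => (@Encodable.encode _ Primcodable.toEncodable a, 0))
    ((enc_sf n).pair (SFn.const 0))
  refine this.congr fun a => ?_
  simp [Part.mem_assert_iff]
  exact fun _ => ⟨(), rfl⟩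

theorem single_fold {n : ℕ} {S : (Fin n → ℕ) → Prop} (hS : REPred S) :
    ∃ (m : ℕ) (P : MvPolynomial (Fin n ⊕ Fin m) ℤ),
      (∀ a, S a ↔ ∃ w : Fin m → ℕ,
        MvPolynomial.eval (fun i => ((Sum.elim a w i : ℕ) : ℤ)) P = 0) ∧
      ∀ a (w w' : Fin m → ℕ), MvPolynomial.eval (fun i => ((Sum.elim a w i : ℕ) : ℤ)) P = 0 →
        MvPolynomial.eval (fun i => ((Sum.elim a w' i : ℕ) : ℤ)) P = 0 → w = w' := by
  obtain ⟨β, _, f, hf, h1, h2⟩ := re_sf hS
  let e := Fintype.equivFin β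
  obtain ⟨q, hq⟩ := hf.ren (Sum.map id e)
  have e2 : ∀ (a : Fin n → ℕ) (w : Fin (Fintype.card β) → ℕ),
      Sum.elim a w ∘ Sum.map id e = Sum.elim a (w ∘ e) := fun a w => by
    funext i; cases i <;> rfl
  have hq' : ∀ (a : Fin n → ℕ) (w : Fin (Fintype.card β) → ℕ),
      MvPolynomial.eval (fun i => ((Sum.elim a w i : ℕ) : ℤ)) q = f (Sum.elim a (w ∘ e)) :=
    fun a w => by rw [← e2]; exact (hq _).symm
  refine ⟨_, q, fun a => ?_, fun a w w' => ?_⟩
  · simp only [hq']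
    rw [← SF.iff_code (P := S) a]
    refine (h1 a).trans ⟨?_, ?_⟩
    · rintro ⟨t, ht⟩
      refine ⟨t ∘ e.symm, ?_⟩
      rwa [Function.comp_assoc, e.symm_comp_self, Function.comp_id]
    · rintro ⟨w, hw⟩; exact ⟨_, hw⟩
  · rw [hq', hq']
    intro a1 a2
    have := h2 _ _ _ a1 a2
    funext i
    simpa using congrFun this (e.symm i)

end Vale.Agent.P345
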